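import Vale.Agent.P088.R2.H349.J.Spec

/-!
# P088, row DIRG: calculus with test functions on the ball of radius `2`, Hardy's inequality
(adapted from helper420's file for the unit ball)
-/

open MeasureTheory Set Filter Topology
open scoped ContDiff Matrix

noncomputable section

namespace Vale.Agent.P088.HY.H285

open Vale.Agent.P088.LR

variable {n : ℕ}

/-- `ρ = 4 - |x|²` -/
def ro (x : V n) : ℝ := 4 - sq x

/-- the ball -/
abbrev B2 (n : ℕ) : Set (V n) := Bs n 2

theorem contDiff_sq : ContDiff ℝ ∞ (sq : V n → ℝ) := by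
  unfold sq
  fun_prop

theorem mem_B2 {x : V n} : x ∈ B2 n ↔ sq x < 4 := by
  unfold B2 Bs
  simp only [mem_setOf_eq]
  norm_num

theorem isOpen_B2 : IsOpen (B2 n) := isOpen_lt contDiff_sq.continuous continuous_const

theorem contDiff_ro : ContDiff ℝ ∞ (ro : V n → ℝ) := by
  unfold ro
  exact contDiff_const.sub contDiff_sq

theorem ro_pos {x : V n} (hx : x ∈ B2 n) : 0 < ro x := by
  have : sq x < 4 := mem_B2.1 hx
  unfold ro; linarith

theorem sq_nonneg' (x : V n) : 0 ≤ sq x := Finset.sum_nonneg fun j _ => _root_.sq_nonneg _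

theorem ro_le (x : V n) : ro x ≤ 4 := by
  have := sq_nonneg' x
  unfold ro; linarith

/-- Test functions on the ball. -/
structure T2 (φ : V n → ℝ) : Prop where
  sm : ContDiff ℝ ∞ φ
  cs : HasCompactSupport φ
  ts : tsupport φ ⊆ B2 n

theorem T2.zero {φ : V n → ℝ} (h : T2 φ) {x : V n} (hx : x ∉ B2 n) : φ x = 0 :=
  image_eq_zero_of_notMem_tsupport fun h' => hx (h.ts h')

theorem T2.integrable {φ : V n → ℝ} (h : T2 φ) : Integrable φ :=
  h.sm.continuous.integrable_of_hasCompactSupport h.cs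

theorem T2.mul {f φ : V n → ℝ} (hf : ContDiffOn ℝ ∞ f (B2 n)) (h : T2 φ) :
    T2 fun x => f x * φ x := by
  have hts : tsupport (fun x => f x * φ x) ⊆ tsupport φ := tsupport_mul_subset_right
  refine ⟨contDiff_iff_contDiffAt.2 fun x => ?_, h.cs.mul_left, hts.trans h.ts⟩
  by_cases hx : x ∈ tsupport φ
  · exact ((hf x (h.ts hx)).contDiffAt (isOpen_B2.mem_nhds (h.ts hx))).mul h.sm.contDiffAt
  · have h0 : (fun x => f x * φ x) =ᶠ[𝓝 x] fun _ => 0 := by
      filter_upwards [notMem_tsupport_iff_eventuallyEq.1 hx] with y hy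
      simp [hy]
    exact contDiffAt_const.congr_of_eventuallyEq h0

theorem T2.add {f φ : V n → ℝ} (hf : T2 f) (h : T2 φ) : T2 fun x => f x + φ x :=
  ⟨hf.sm.add h.sm, hf.cs.add h.cs, (tsupport_add f φ).trans (union_subset hf.ts h.ts)⟩

theorem T2.const_mul {φ : V n → ℝ} (c : ℝ) (h : T2 φ) : T2 fun x => c * φ x :=
  T2.mul contDiffOn_const h

theorem T2.neg {φ : V n → ℝ} (h : T2 φ) : T2 fun x => - φ x := by
  simpa using h.const_mul (-1)

theorem T2.zero_fun : T2 (fun _ : V n => (0 : ℝ)) :=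
  ⟨contDiff_const, HasCompactSupport.zero, by simp [tsupport]⟩

theorem T2.sum {ι : Type*} (s : Finset ι) {f : ι → V n → ℝ} (h : ∀ i ∈ s, T2 (f i)) :
    T2 fun x => ∑ i ∈ s, f i x := by
  classical
  induction s using Finset.induction_on with
  | empty => simpa using T2.zero_fun
  | insert a s ha ih =>
    simp only [Finset.sum_insert ha]
    exact (h a (Finset.mem_insert_self a s)).add
      (ih fun i hi => h i (Finset.mem_insert_of_mem hi))

theorem T2.pd {φ : V n → ℝ} (h : T2 φ) (i : Fin n) : T2 (pd i φ) := by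
  refine ⟨?_, ?_, ?_⟩
  · exact (h.sm.fderiv_right (m := ∞) (by simp)).clm_apply contDiff_const
  · exact h.cs.fderiv_apply (𝕜 := ℝ) (Pi.single i 1)
  · exact (tsupport_fderiv_apply_subset ℝ (Pi.single i 1)).trans h.ts

theorem pd_contDiffOn {O : Set (V n)} (hO : IsOpen O) {f : V n → ℝ} (hf : ContDiffOn ℝ ∞ f O)
    (i : Fin n) : ContDiffOn ℝ ∞ (LR.pd i f) O :=
  (hf.fderiv_of_isOpen hO (m := ∞) (by simp)).clm_apply contDiffOn_const

/-- integration by parts -/
theorem ibp {f φ : V n → ℝ} (hf : ContDiffOn ℝ ∞ f (B2 n)) (h : T2 φ) (i : Fin n) :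
    ∫ x, f x * LR.pd i φ x = - ∫ x, LR.pd i f x * φ x := by
  unfold LR.pd
  refine integral_mul_fderiv_eq_neg_fderiv_mul_of_integrable ?_ ?_ ?_ ?_ ?_
  · exact (T2.mul (pd_contDiffOn isOpen_B2 hf i) h).integrable
  · exact (T2.mul hf (h.pd i)).integrable
  · exact (T2.mul hf h).integrable
  · exact fun x hx => ((hf x (h.ts hx)).contDiffAt (isOpen_B2.mem_nhds (h.ts hx))).differentiableAt
      (by simp)
  · exact fun x _ => h.sm.contDiffAt.differentiableAt (by simp)

theorem hasFDerivAt_coord (i : Fin n) (x : V n) :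
    HasFDerivAt (fun y : V n => y i) (ContinuousLinearMap.proj (R := ℝ) (φ := fun _ => ℝ) i) x :=
  (ContinuousLinearMap.proj (R := ℝ) (φ := fun _ : Fin n => ℝ) i).hasFDerivAt

theorem pd_sq (i : Fin n) (x : V n) : LR.pd i sq x = 2 * x i := by
  unfold LR.pd
  have h : HasFDerivAt (sq : V n → ℝ) (∑ j, (2 * x j) •
      (ContinuousLinearMap.proj (R := ℝ) (φ := fun _ : Fin n => ℝ) j)) x := by
    unfold sq
    refine HasFDerivAt.fun_sum fun j _ => ?_
    have := (hasFDerivAt_coord j x).pow 2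
    simpa [two_mul] using this
  rw [h.fderiv]
  simp [Pi.single_apply]

theorem pd_ro (i : Fin n) (x : V n) : LR.pd i ro x = - (2 * x i) := by
  have h2 : LR.pd i (ro : V n → ℝ) x = - (LR.pd i sq x) := by
    unfold LR.pd
    have h3 : HasFDerivAt (sq : V n → ℝ) (fderiv ℝ sq x) x :=
      (contDiff_sq.differentiable (by simp) x).hasFDerivAt
    have h4 : HasFDerivAt (ro : V n → ℝ) (- fderiv ℝ sq x) x := h3.const_sub 4
    rw [h4.fderiv]
    simp
  rw [h2, pd_sq]

theorem pd_div_ro (i : Fin n) {x : V n} (hx : x ∈ B2 n) :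
    LR.pd i (fun y : V n => y i / ro y) x = 1 / ro x + 2 * x i ^ 2 / ro x ^ 2 := by
  have h0 : ro x ≠ 0 := (ro_pos hx).ne'
  have h1 : HasFDerivAt (ro : V n → ℝ) (fderiv ℝ ro x) x :=
    (contDiff_ro.differentiable (by simp) x).hasFDerivAt
  have h2 := (hasFDerivAt_coord i x).mul ((hasDerivAt_inv h0).comp_hasFDerivAt x h1)
  unfold LR.pd
  have h3 : (fun y : V n => y i / ro y) = (fun y : V n => y i) * (Inv.inv ∘ ro) := by
    funext y; simp [div_eq_mul_inv]
  rw [h3, h2.fderiv]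
  have h4 := pd_ro i x
  unfold LR.pd at h4
  simp only [Function.comp_apply, _root_.add_apply, _root_.smul_apply, h4,
    ContinuousLinearMap.proj_apply, Pi.single_eq_same, smul_eq_mul]
  field_simp
  ring

theorem contDiffOn_inv_ro : ContDiffOn ℝ ∞ (fun y : V n => (ro y)⁻¹) (B2 n) :=
  contDiff_ro.contDiffOn.inv fun x hx => (ro_pos hx).ne'

theorem contDiffOn_coord_div (i : Fin n) : ContDiffOn ℝ ∞ (fun y : V n => y i / ro y) (B2 n) := by
  have h : ContDiff ℝ ∞ fun y : V n => y i := by fun_prop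
  simpa [div_eq_mul_inv] using h.contDiffOn.mul contDiffOn_inv_ro

theorem T2.div {φ : V n → ℝ} (h : T2 φ) : T2 fun x => φ x / ro x := by
  have h1 : T2 fun x => (ro x)⁻¹ * φ x := T2.mul contDiffOn_inv_ro h
  convert h1 using 2
  ring

theorem T2.sq {φ : V n → ℝ} (h : T2 φ) : T2 fun x => φ x ^ 2 := by
  have h1 : T2 fun x => φ x * φ x := T2.mul h.sm.contDiffOn h
  simpa [pow_two] using h1

/-- Hardy's inequality. -/
theorem hardy (hn : 2 ≤ n) {φ : V n → ℝ} (h : T2 φ) :
    4 * ∫ x, (φ x / ro x) ^ 2 ≤ ∫ x, ∑ i, LR.pd i φ x ^ 2 := by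
  have hφ2 : T2 fun x => φ x * φ x := T2.mul h.sm.contDiffOn h
  have hpd : ∀ i x, LR.pd i (fun x => φ x * φ x) x = 2 * φ x * LR.pd i φ x := by
    intro i x
    unfold LR.pd
    have h1 : HasFDerivAt φ (fderiv ℝ φ x) x := (h.sm.differentiable (by simp) x).hasFDerivAt
    have h2 : (fun x => φ x * φ x) = φ * φ := rfl
    rw [h2, (h1.mul h1).fderiv]
    simp; ring
  have hA : T2 fun x => (φ x / ro x) ^ 2 := h.div.sq
  have hG : T2 fun x => ∑ i, LR.pd i φ x ^ 2 := T2.sum _ fun i _ => (h.pd i).sq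
  -- the identity
  have hid : ∀ i : Fin n, ∫ x, (x i / ro x) * (2 * φ x * LR.pd i φ x) =
      - ∫ x, (LR.pd i (fun y : V n => y i / ro y) x) * (φ x * φ x) := by
    intro i
    have := ibp (contDiffOn_coord_div i) hφ2 i
    simpa only [hpd] using this
  have hI1 : ∀ i : Fin n, T2 fun x => (x i / ro x) * (2 * φ x * LR.pd i φ x) := by
    intro i
    have h1 : T2 fun x => (2 * φ x) * LR.pd i φ x :=
      T2.mul (contDiff_const.mul h.sm).contDiffOn (h.pd i)
    exact T2.mul (contDiffOn_coord_div i) h1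
  have hI2 : ∀ i : Fin n, T2 fun x => (LR.pd i (fun y : V n => y i / ro y) x) * (φ x * φ x) :=
    fun i => T2.mul (pd_contDiffOn isOpen_B2 (contDiffOn_coord_div i) i) hφ2
  have hsum : ∫ x, ∑ i, (x i / ro x) * (2 * φ x * LR.pd i φ x) =
      - ∫ x, ∑ i, (LR.pd i (fun y : V n => y i / ro y) x) * (φ x * φ x) := by
    rw [integral_finsetSum _ fun i _ => (hI1 i).integrable,
      integral_finsetSum _ fun i _ => (hI2 i).integrable, ← Finset.sum_neg_distrib]
    exact Finset.sum_congr rfl fun i _ => hid i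
  have hpt1 : ∀ x, 8 * (φ x / ro x) ^ 2 ≤
      ∑ i, (LR.pd i (fun y : V n => y i / ro y) x) * (φ x * φ x) := by
    intro x
    by_cases hx : x ∈ B2 n
    · have hr := ro_pos hx
      rw [← Finset.sum_mul]
      have h1 : ∑ i, LR.pd i (fun y : V n => y i / ro y) x = 8 / ro x ^ 2 + (n - 2) / ro x := by
        have h2 : ∀ i : Fin n, LR.pd i (fun y : V n => y i / ro y) x =
          1 / ro x + 2 * x i ^ 2 / ro x ^ 2 := fun i => pd_div_ro i hx
        simp only [h2, Finset.sum_add_distrib, ← Finset.sum_div, ← Finset.mul_sum]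
        have h3 : ∑ i, x i ^ 2 = 4 - ro x := by unfold ro HY.sq; ring
        rw [h3]
        simp only [Finset.sum_const, Finset.card_univ, Fintype.card_fin, nsmul_eq_mul]
        field_simp
        ring
      rw [h1]
      have hn' : (0 : ℝ) ≤ (n - 2) / ro x := by
        have : (2 : ℝ) ≤ n := by exact_mod_cast hn
        exact div_nonneg (by linarith) hr.le
      have h4 : 8 * (φ x / ro x) ^ 2 = 8 / ro x ^ 2 * (φ x * φ x) := by
        field_simp
      rw [h4]
      have := mul_nonneg hn' (mul_self_nonneg (φ x))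
      nlinarith
    · simp [h.zero hx]
  have hpt2 : ∀ x, - ∑ i, (x i / ro x) * (2 * φ x * LR.pd i φ x) ≤
      4 * (φ x / ro x) ^ 2 + ∑ i, LR.pd i φ x ^ 2 := by
    intro x
    by_cases hx : x ∈ B2 n
    · have hr := ro_pos hx
      set t := φ x / ro x with ht
      set q := ∑ i, x i * LR.pd i φ x with hq
      have e1 : ∑ i, (x i / ro x) * (2 * φ x * LR.pd i φ x) = 2 * t * q := by
        rw [hq, Finset.mul_sum]
        refine Finset.sum_congr rfl fun i _ => ?_
        rw [ht]; ring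
      have e2 : q ^ 2 ≤ 4 * ∑ i, LR.pd i φ x ^ 2 := by
        have h1 := Finset.sum_mul_sq_le_sq_mul_sq Finset.univ (fun i => x i)
          (fun i => LR.pd i φ x)
        have h2 : ∑ i, x i ^ 2 < 4 := mem_B2.1 hx
        have h3 : 0 ≤ ∑ i, LR.pd i φ x ^ 2 := Finset.sum_nonneg fun i _ => _root_.sq_nonneg _
        calc q ^ 2 ≤ (∑ i, x i ^ 2) * ∑ i, LR.pd i φ x ^ 2 := h1
          _ ≤ 4 * ∑ i, LR.pd i φ x ^ 2 := by gcongr
      rw [e1]
      nlinarith [_root_.sq_nonneg (2 * t + q / 2)]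
    · have h0 : ∀ i, LR.pd i φ x = 0 := fun i => (h.pd i).zero hx
      simp [h.zero hx, h0]
  have h5 : 8 * ∫ x, (φ x / ro x) ^ 2 ≤
      ∫ x, ∑ i, (LR.pd i (fun y : V n => y i / ro y) x) * (φ x * φ x) := by
    rw [← integral_const_mul]
    exact integral_mono (hA.integrable.const_mul _) (T2.sum _ fun i _ => hI2 i).integrable hpt1
  have h6 : - ∫ x, ∑ i, (x i / ro x) * (2 * φ x * LR.pd i φ x) ≤
      ∫ x, (4 * (φ x / ro x) ^ 2 + ∑ i, LR.pd i φ x ^ 2) := by
    rw [← integral_neg]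
    exact integral_mono (T2.sum _ fun i _ => hI1 i).integrable.neg
      ((hA.integrable.const_mul _).add hG.integrable) hpt2
  rw [integral_add (hA.integrable.const_mul _) hG.integrable, integral_const_mul] at h6
  rw [hsum, neg_neg] at h6
  linarith

end Vale.Agent.P088.HY.H285
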