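import Vale.Agent.P088.R2.H285.J.Reg

/-!
# P088, row DIRG: the covariant Dirichlet problem on the ball of radius `2`
-/

open MeasureTheory Set Filter Topology
open scoped ContDiff Matrix RealInnerProductSpace

noncomputable section

namespace Vale.Agent.P088.HY.H285

open Vale.Agent.P088.LR

variable {n : ℕ} {ι : Type} [Fintype ι] [DecidableEq ι]

theorem abs_coord_le {x : V n} {r : ℝ} (hr : 0 ≤ r) (h : sq x < r ^ 2) (j : Fin n) : |x j| ≤ r := by
  have h1 : x j ^ 2 ≤ ∑ j, x j ^ 2 := Finset.single_le_sum
    (f := fun j => x j ^ 2) (fun j _ => _root_.sq_nonneg _) (Finset.mem_univ j)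
  have h2 : ∑ j, x j ^ 2 < r ^ 2 := h
  exact abs_le_of_sq_le_sq (by linarith) hr

theorem Bs_sub {r : ℝ} (hr : 0 ≤ r) : Bs n r ⊆ Metric.closedBall (0 : V n) r := by
  intro x hx
  rw [mem_closedBall_zero_iff, pi_norm_le_iff_of_nonneg hr]
  exact fun j => abs_coord_le hr hx j

instance finite_mu : IsFiniteMeasure (mu n) := by
  refine ⟨?_⟩
  rw [Measure.restrict_apply_univ]
  exact (Metric.isBounded_closedBall.subset (Bs_sub (n := n) (r := 2) (by norm_num))).measure_lt_top

/-- The covariant Dirichlet problem, vector version. -/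
theorem vec (hyp : RowHYP) (hn : 3 ≤ n) {s : MF n} {ε : ℝ} (hb : Bd s ε) (hε : ε ≤ 1)
    (hε' : ε * n ≤ 1 / 2) (hs : SmM s) (hsy : ∀ x, (s x).IsSymm) {A : Cv n ι} {ε₁ : ℝ}
    (hA : Sk A ε₁) (hε₁ : 16 * n * Fintype.card ι ^ 2 * ε₁ ^ 2 ≤ 1)
    (a : Fin n → ι → V n → ℝ) (ha : ∀ i α, ContDiff ℝ ∞ (a i α))
    (ha0 : ∀ x ∉ Bs n (3 / 4), ∀ i α, a i α x = 0) :
    ∃ u : ι → V n → ℝ, (∀ α, ContDiffOn ℝ ∞ (u α) (B2 n)) ∧
      (∀ α, IntegrableOn (fun x => u α x ^ 2 / (4 - sq x) ^ 2) (B2 n)) ∧
      (∀ i α, IntegrableOn (fun x => (a i α x + DD A i u α x) ^ 2) (B2 n)) ∧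
      (∀ x ∈ B2 n, ∀ α, ∑ i, DD A i (fun β y => ∑ j, s y i j * (a j β y + DD A j u β y)) α x = 0) ∧
      ∫ x in B2 n, ∑ i, ∑ j, s x i j * ∑ α, (a i α x + DD A i u α x) * (a j α x + DD A j u α x) =
      ∫ x in B2 n, ∑ i, ∑ j, s x i j * ∑ α, (a i α x + DD A i u α x) * a j α x := by
  have hsym : ∀ x i j, s x i j = s x j i := fun x i j => by
    have := congrFun (congrFun (hsy x) j) i
    simpa [Matrix.transpose_apply] using this
  -- the element of `a`
  have haL : MemLp (fun x => (mk (fun _ => 0) (fun i α => a i α x) : Ev n ι)) 2 (mu n) := by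
    refine Continuous.memLp_of_hasCompactSupport (continuous_mk (fun _ => continuous_const)
      fun i α => (ha i α).continuous) ?_
    refine HasCompactSupport.intro (K := Metric.closedBall 0 (3 / 4))
      (isCompact_closedBall _ _) fun x hx => ?_
    have hx' : x ∉ Bs n (3 / 4) := fun h => hx (Bs_sub (by norm_num) h)
    ext o
    rcases o with ⟨o, α⟩
    cases o with
    | none => simp
    | some i => simp [ha0 x hx' i α]
  set aL : LL n ι := haL.toLp _ with haLdef
  have haLc : (aL : V n → Ev n ι) =ᵐ[mu n]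
      fun x => (mk (fun _ => 0) (fun i α => a i α x) : Ev n ι) := MemLp.coeFn_toLp _
  obtain ⟨U, hUK, hsol⟩ := exists_sol (by omega) hA hε₁ hb hε hε' (- TT hb hε aL)
  have hort : ∀ W ∈ KK hA, ⟪TT hb hε (U + aL), W⟫ = 0 := by
    intro W hW
    rw [map_add, inner_add_left, hsol W hW, inner_neg_left]
    ring
  have hUa : (↑(U + aL) : V n → Ev n ι) =ᵐ[mu n] fun x => U x + aL x := Lp.coeFn_add U aL
  -- the divergence of `a`
  set F : ι → V n → ℝ := fun α x => ∑ j, DD A j (fun β y => ∑ i, s y i j * a i β y) α x with hF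
  have hsa : ∀ j β, ContDiff ℝ ∞ (fun y => ∑ i, s y i j * a i β y) := fun j β =>
    ContDiff.sum fun i _ => (hs i j).mul (ha i β)
  have hDsm : ∀ {u : ι → V n → ℝ}, (∀ α, ContDiff ℝ ∞ (u α)) → ∀ i α,
      ContDiff ℝ ∞ (DD A i u α) := fun hu i α =>
    (pd_smooth (hu α) i).add (ContDiff.sum fun β _ => (hA.sm i α β).mul (hu β))
  have hFs : ∀ α, ContDiff ℝ ∞ (F α) := fun α => ContDiff.sum fun j _ => hDsm (hsa j) j α
  have hweak : ∀ φ : ι → V n → ℝ, TV φ →
      ∫ x, ∑ α, ro x * U x (none, α) * LL2 s A φ α x ∂(mu n) = - ∫ x, ∑ α, F α x * φ α x := by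
    intro φ h
    have h1 := hort (J hA h) (J_mem hA h)
    rw [map_add, inner_add_left, weak_LL2 hb hε hs hA hUK h] at h1
    have h2 : ⟪TT hb hε aL, J hA h⟫ = - ∫ x, ∑ α, F α x * φ α x := by
      rw [inner_TT]
      have e1 : ∫ x, ∑ i, ∑ j, s x i j * ∑ α, aL x (some i, α) * (J hA h) x (some j, α) ∂(mu n) =
          ∫ x, ∑ j, ∑ α, (∑ i, s x i j * a i α x) * DD A j φ α x ∂(mu n) := by
        refine integral_congr_ae ?_
        filter_upwards [J_coe hA h, haLc] with x hx hx2
        rw [hx, hx2]
        simp only [jet, mk_some, Finset.mul_sum, Finset.sum_mul]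
        rw [Finset.sum_comm]
        refine Finset.sum_congr rfl fun j _ => ?_
        rw [Finset.sum_comm]
        refine Finset.sum_congr rfl fun α _ => Finset.sum_congr rfl fun i _ => ?_
        ring
      have t1 : ∀ j, T2 fun x => ∑ α, (∑ i, s x i j * a i α x) * DD A j φ α x := fun j =>
        T2.sum _ fun α _ => T2.mul (hsa j α).contDiffOn (DD_T2 hA h j α)
      have t2 : ∀ j, T2 fun x => ∑ α, DD A j (fun β y => ∑ i, s y i j * a i β y) α x * φ α x :=
        fun j => T2.sum _ fun α _ => T2.mul (hDsm (hsa j) j α).contDiffOn (h α)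
      rw [e1, integral_mu_T2 (T2.sum _ fun j _ => t1 j),
        integral_finsetSum _ fun j _ => (t1 j).integrable]
      have e2 : ∫ x, ∑ α, F α x * φ α x = ∑ j, ∫ x, ∑ α,
          DD A j (fun β y => ∑ i, s y i j * a i β y) α x * φ α x := by
        rw [← integral_finsetSum _ fun j _ => (t2 j).integrable]
        refine integral_congr_ae (Eventually.of_forall fun x => ?_)
        simp only [hF, Finset.sum_mul]
        rw [Finset.sum_comm]
      rw [e2, ← Finset.sum_neg_distrib]
      refine Finset.sum_congr rfl fun j _ => ?_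
      exact ibpA hA (fun α => (hsa j α).contDiffOn) h j
    rw [h2] at h1
    linarith
  -- regularity
  set w₀ : ι → V n → ℝ := fun α => (B2 n).indicator fun x => ro x * U x (none, α) with hw₀
  have hw₀m : ∀ α, AEStronglyMeasurable (w₀ α) volume := by
    intro α
    rw [hw₀]
    simp only
    rw [aestronglyMeasurable_indicator_iff isOpen_B2.measurableSet]
    exact contDiff_ro.continuous.aestronglyMeasurable.mul (comp_memLp U (none, α)).1
  have hw₀2 : ∀ α, MemLp (fun x => ro x * U x (none, α)) 2 (mu n) := by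
    intro α
    refine MemLp.of_le_mul (c := 4) (comp_memLp U (none, α)) ?_ ?_
    · exact contDiff_ro.continuous.aestronglyMeasurable.mul (comp_memLp U (none, α)).1
    · filter_upwards [ae_restrict_mem isOpen_B2.measurableSet] with x hx
      rw [norm_mul, Real.norm_eq_abs, abs_of_pos (ro_pos hx)]
      exact mul_le_mul_of_nonneg_right (ro_le x) (norm_nonneg _)
  have hw₀i : ∀ α, Integrable (fun x => w₀ α x ^ 2) volume := by
    intro α
    have h1 : (fun x => w₀ α x ^ 2) = (B2 n).indicator fun x => (ro x * U x (none, α)) ^ 2 := by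
      funext x
      rw [hw₀]
      by_cases hx : x ∈ B2 n <;> simp [hx]
    rw [h1]
    exact (integrable_indicator_iff isOpen_B2.measurableSet).2 (hw₀2 α).integrable_sq
  obtain ⟨u, hu, hue⟩ := regular hyp hb hε' hs hA w₀ (fun α x => - F α x) hw₀m hw₀i
    (fun α => (hFs α).neg.contDiffOn) (by
      intro φ h
      have e1 : ∫ x, ∑ α, w₀ α x * LL2 s A φ α x =
          ∫ x, ∑ α, ro x * U x (none, α) * LL2 s A φ α x ∂(mu n) := by
        rw [← integral_indicator isOpen_B2.measurableSet]
        refine integral_congr_ae (Eventually.of_forall fun x => ?_)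
        simp only [hw₀]
        by_cases hx : x ∈ B2 n <;> simp [hx]
      rw [e1, hweak φ h, ← integral_neg]
      refine integral_congr_ae (Eventually.of_forall fun x => ?_)
      simp only [neg_mul, Finset.sum_neg_distrib])
  have hwe : ∀ α, ∀ᵐ x ∂(mu n), u α x = ro x * U x (none, α) := by
    intro α
    filter_upwards [hue α, ae_restrict_mem isOpen_B2.measurableSet] with x hx hB
    rw [hx, hw₀]
    simp [hB]
  -- the gradient
  have hgr : ∀ i α, ∀ᵐ x ∂(mu n), DD A i u α x = U x (some i, α) := by
    intro i α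
    rw [ae_restrict_iff' isOpen_B2.measurableSet]
    have h1 : ∀ᵐ x ∂(volume : Measure (V n)), x ∈ B2 n →
        (DD A i u α x - U x (some i, α)) = 0 := by
      refine isOpen_B2.ae_eq_zero_of_integral_contDiff_smul_eq_zero ?_ ?_
      · refine LocallyIntegrableOn.sub ((DD_contDiffOn hA hu i α).continuousOn.locallyIntegrableOn
          isOpen_B2.measurableSet) ?_
        refine IntegrableOn.locallyIntegrableOn ?_
        exact (comp_memLp U (some i, α)).integrable one_le_two
      · intro g hg hgc hgs
        have hT : T2 g := ⟨hg, hgc, hgs⟩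
        have a2 := weak_grad hA hT i α hUK
        have tD : T2 fun x => DD A i u α x * g x := T2.mul (DD_contDiffOn hA hu i α) hT
        have t1 : T2 fun x => LR.pd i (u α) x * g x := T2.mul (pd_contDiffOn isOpen_B2 (hu α) i) hT
        have t2 : ∀ β, T2 fun x => u β x * (A i x α β * g x) := fun β =>
          T2.mul (hu β) (T2.mul (hA.sm i α β).contDiffOn hT)
        have i2 := integrable_comp_mul U (some i, α) hT
        have a3 : ∫ x, ro x * U x (none, α) * LR.pd i g x ∂(mu n) = ∫ x, u α x * LR.pd i g x := by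
          rw [← integral_mu_T2 (T2.mul (hu α) (hT.pd i))]
          refine integral_congr_ae ?_
          filter_upwards [hwe α] with x hx
          rw [hx]
        have a4 : ∀ β, ∫ x, ro x * U x (none, β) * (A i x α β * g x) ∂(mu n) =
            ∫ x, u β x * (A i x α β * g x) := by
          intro β
          rw [← integral_mu_T2 (t2 β)]
          refine integral_congr_ae ?_
          filter_upwards [hwe β] with x hx
          rw [hx]
        rw [a3, ibp (hu α) hT i] at a2
        simp only [a4] at a2
        have a5 : ∫ x, DD A i u α x * g x = (∫ x, LR.pd i (u α) x * g x) +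
            ∑ β, ∫ x, u β x * (A i x α β * g x) := by
          rw [← integral_finsetSum _ fun β _ => (t2 β).integrable, ← integral_add t1.integrable
            (T2.sum _ fun β _ => t2 β).integrable]
          refine integral_congr_ae (Eventually.of_forall fun x => ?_)
          simp only [DD, add_mul, Finset.sum_mul]
          congr 1
          exact Finset.sum_congr rfl fun β _ => by ring
        have a6 : ∫ x, g x • (DD A i u α x - U x (some i, α)) =
            ∫ x, g x • (DD A i u α x - U x (some i, α)) ∂(mu n) := by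
          refine (setIntegral_eq_integral_of_forall_compl_eq_zero fun x hx => ?_).symm
          rw [hT.zero hx, zero_smul]
        have a7 : ∫ x, g x • (DD A i u α x - U x (some i, α)) ∂(mu n) =
            ∫ x, DD A i u α x * g x ∂(mu n) - ∫ x, U x (some i, α) * g x ∂(mu n) := by
          rw [← integral_sub tD.integrable.restrict i2]
          refine integral_congr_ae (Eventually.of_forall fun x => ?_)
          simp only [smul_eq_mul]; ring
        rw [a6, a7, integral_mu_T2 tD, a5]
        linarith
    filter_upwards [h1] with x hx hB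
    linarith [hx hB]
  have hLam : ∀ᵐ x ∂(mu n), ∀ i α, (↑(U + aL) : V n → Ev n ι) x (some i, α) =
      a i α x + DD A i u α x := by
    have h1 : ∀ᵐ x ∂(mu n), ∀ i α, DD A i u α x = U x (some i, α) :=
      ae_all_iff.2 fun i => ae_all_iff.2 fun α => hgr i α
    filter_upwards [h1, hUa, haLc] with x h2 h3 h4
    intro i α
    rw [h3, h4, PiLp.add_apply, mk_some, h2]
    ring
  refine ⟨u, hu, ?_, ?_, ?_, ?_⟩
  · intro α
    refine Integrable.congr (f := fun x => U x (none, α) ^ 2) (comp_memLp U (none, α)).integrable_sq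
      ?_
    filter_upwards [hwe α, ae_restrict_mem isOpen_B2.measurableSet] with x hx hB
    have hr := (ro_pos hB).ne'
    rw [hx]
    change _ = (ro x * U x (none, α)) ^ 2 / ro x ^ 2
    field_simp
  · intro i α
    refine Integrable.congr (f := fun x => (↑(U + aL) : V n → Ev n ι) x (some i, α) ^ 2)
      (comp_memLp (U + aL) (some i, α)).integrable_sq ?_
    filter_upwards [hLam] with x hx
    rw [hx]
  · -- the equation
    set Λ : Fin n → ι → V n → ℝ := fun i β y => ∑ j, s y i j * (a j β y + DD A j u β y) with hΛ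
    have hΛs : ∀ i β, ContDiffOn ℝ ∞ (Λ i β) (B2 n) := fun i β =>
      ContDiffOn.sum fun j _ => (hs i j).contDiffOn.mul
        ((ha j β).contDiffOn.add (DD_contDiffOn hA hu j β))
    have hE : ∀ α, ContDiffOn ℝ ∞ (fun x => ∑ i, DD A i (Λ i) α x) (B2 n) := fun α =>
      ContDiffOn.sum fun i _ => DD_contDiffOn hA (hΛs i) i α
    intro x₀ hx₀ α₀
    have hmain : ∀ᵐ x ∂(volume : Measure (V n)), x ∈ B2 n → ∑ i, DD A i (Λ i) α₀ x = 0 := by
      refine isOpen_B2.ae_eq_zero_of_integral_contDiff_smul_eq_zero ?_ ?_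
      · exact (hE α₀).continuousOn.locallyIntegrableOn isOpen_B2.measurableSet
      · intro g hg hgc hgs
        have hT : T2 g := ⟨hg, hgc, hgs⟩
        set φ : ι → V n → ℝ := fun β x => if β = α₀ then g x else 0 with hφ
        have h : TV φ := by
          intro β
          by_cases hβ : β = α₀
          · have : φ β = g := by funext x; simp [hφ, hβ]
            rw [this]; exact hT
          · have : φ β = fun _ => 0 := by funext x; simp [hφ, hβ]
            rw [this]; exact T2.zero_fun
        have h1 := hort (J hA h) (J_mem hA h)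
        rw [inner_TT] at h1
        have t1 : ∀ i, T2 fun x => ∑ α, Λ i α x * DD A i φ α x := fun i =>
          T2.sum _ fun α _ => T2.mul (hΛs i α) (DD_T2 hA h i α)
        have t2 : ∀ i, T2 fun x => ∑ α, DD A i (Λ i) α x * φ α x := fun i =>
          T2.sum _ fun α _ => T2.mul (DD_contDiffOn hA (hΛs i) i α) (h α)
        have e1 : ∫ x, ∑ i, ∑ j, s x i j * ∑ α, (↑(U + aL) : V n → Ev n ι) x (some i, α) *
            (J hA h) x (some j, α) ∂(mu n) = ∫ x, ∑ i, ∑ α, Λ i α x * DD A i φ α x ∂(mu n) := by
          refine integral_congr_ae ?_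
          filter_upwards [J_coe hA h, hLam] with x hx hx2
          rw [hx]
          simp only [hx2, jet, mk_some, hΛ, Finset.mul_sum, Finset.sum_mul]
          rw [Finset.sum_comm]
          refine Finset.sum_congr rfl fun i _ => ?_
          rw [Finset.sum_comm]
          refine Finset.sum_congr rfl fun α _ => Finset.sum_congr rfl fun j _ => ?_
          rw [hsym x j i]
          ring
        rw [e1, integral_mu_T2 (T2.sum _ fun i _ => t1 i),
          integral_finsetSum _ fun i _ => (t1 i).integrable] at h1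
        have e2 : ∀ i, ∫ x, ∑ α, Λ i α x * DD A i φ α x =
            - ∫ x, ∑ α, DD A i (Λ i) α x * φ α x := fun i => ibpA hA (hΛs i) h i
        simp only [e2] at h1
        rw [Finset.sum_neg_distrib, neg_eq_zero,
          ← integral_finsetSum _ fun i _ => (t2 i).integrable] at h1
        rw [← h1]
        refine integral_congr_ae (Eventually.of_forall fun x => ?_)
        simp only [hφ, mul_ite, mul_zero, Finset.sum_ite_eq', Finset.mem_univ, if_true,
          smul_eq_mul]
        rw [Finset.mul_sum]
        exact Finset.sum_congr rfl fun i _ => by ring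
    have h2 : (fun x => ∑ i, DD A i (Λ i) α₀ x) =ᵐ[volume.restrict (B2 n)] fun _ => 0 := by
      rw [EventuallyEq, ae_restrict_iff' isOpen_B2.measurableSet]
      exact hmain
    exact Measure.eqOn_open_of_ae_eq h2 isOpen_B2 (hE α₀).continuousOn continuousOn_const hx₀
  · -- the energy identity
    have h1 := hort U hUK
    have h2 : ⟪TT hb hε (U + aL), U + aL⟫ = ⟪TT hb hε (U + aL), aL⟫ := by
      rw [inner_add_right, h1, zero_add]
    rw [inner_TT, inner_TT] at h2
    have e1 : ∫ x in B2 n, ∑ i, ∑ j, s x i j *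
        ∑ α, (a i α x + DD A i u α x) * (a j α x + DD A j u α x) =
        ∫ x, ∑ i, ∑ j, s x i j * ∑ α, (↑(U + aL) : V n → Ev n ι) x (some i, α) *
          (↑(U + aL) : V n → Ev n ι) x (some j, α) ∂(mu n) := by
      refine integral_congr_ae ?_
      filter_upwards [hLam] with x hx
      simp only [hx]
    have e2 : ∫ x in B2 n, ∑ i, ∑ j, s x i j * ∑ α, (a i α x + DD A i u α x) * a j α x =
        ∫ x, ∑ i, ∑ j, s x i j * ∑ α, (↑(U + aL) : V n → Ev n ι) x (some i, α) *
          aL x (some j, α) ∂(mu n) := by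
      refine integral_congr_ae ?_
      filter_upwards [hLam, haLc] with x hx hx2
      simp only [hx, hx2, mk_some]
    rw [e1, e2]
    exact h2

end Vale.Agent.P088.HY.H285
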