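import Vale.Agent.P088.R2.H285.J.Vec

/-!
# P088, row DIRG: the operator in coordinates and the regularity
-/

open MeasureTheory Set Filter Topology
open scoped ContDiff Matrix RealInnerProductSpace

noncomputable section

namespace Vale.Agent.P088.HY.H285

open Vale.Agent.P088.LR

variable {n : ℕ} {ι : Type} [Fintype ι] [DecidableEq ι]

/-- `∑_j s_ij A_j` -/
def BB (s : MF n) (A : Cv n ι) (i : Fin n) (α β : ι) (y : V n) : ℝ := ∑ j, s y i j * A j y α β

/-- coefficients of order two -/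
def c2 (s : MF n) (β α : ι) (i j : Fin n) (x : V n) : ℝ := if β = α then s x i j else 0

/-- coefficients of order one -/
def c1 (s : MF n) (A : Cv n ι) (β α : ι) (i : Fin n) (x : V n) : ℝ :=
  (if β = α then ∑ k, LR.pd k (fun y => s y k i) x else 0) + BB s A i α β x +
    ∑ k, s x k i * A k x α β

/-- coefficients of order zero -/
def c0 (s : MF n) (A : Cv n ι) (β α : ι) (x : V n) : ℝ :=
  ∑ i, (LR.pd i (BB s A i α β) x + ∑ γ, A i x α γ * BB s A i γ β x)

omit [DecidableEq ι] in
theorem BB_smooth {s : MF n} (hs : SmM s) {A : Cv n ι} {ε : ℝ} (hA : Sk A ε) (i : Fin n)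
    (α β : ι) : ContDiff ℝ ∞ (BB s A i α β) :=
  ContDiff.sum fun j _ => (hs i j).mul (hA.sm j α β)

omit [DecidableEq ι] in
theorem pd_smooth {f : V n → ℝ} (hf : ContDiff ℝ ∞ f) (i : Fin n) : ContDiff ℝ ∞ (LR.pd i f) :=
  (hf.fderiv_right (m := ∞) (by simp)).clm_apply contDiff_const

theorem c2_smooth {s : MF n} (hs : SmM s) (β α : ι) (i j : Fin n) :
    ContDiff ℝ ∞ (c2 s β α i j) := by
  unfold c2
  by_cases h : β = α
  · simpa [h] using hs i j
  · simpa [h] using contDiff_const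

theorem c1_smooth {s : MF n} (hs : SmM s) {A : Cv n ι} {ε : ℝ} (hA : Sk A ε) (β α : ι)
    (i : Fin n) : ContDiff ℝ ∞ (c1 s A β α i) := by
  unfold c1
  refine (ContDiff.add ?_ (BB_smooth hs hA i α β)).add
    (ContDiff.sum fun k _ => (hs k i).mul (hA.sm k α β))
  by_cases h : β = α
  · simpa [h] using ContDiff.sum fun k _ => pd_smooth (hs k i) k
  · simpa [h] using contDiff_const

omit [DecidableEq ι] in
theorem c0_smooth {s : MF n} (hs : SmM s) {A : Cv n ι} {ε : ℝ} (hA : Sk A ε) (β α : ι) :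
    ContDiff ℝ ∞ (c0 s A β α) :=
  ContDiff.sum fun i _ => (pd_smooth (BB_smooth hs hA i α β) i).add
    (ContDiff.sum fun γ _ => (hA.sm i α γ).mul (BB_smooth hs hA i γ β))

omit [DecidableEq ι] in
theorem hasF {f : V n → ℝ} (hf : ContDiff ℝ ∞ f) (x : V n) : HasFDerivAt f (fderiv ℝ f x) x :=
  (hf.differentiable (by simp) x).hasFDerivAt

omit [DecidableEq ι] in
theorem pd_fsum {κ : Type} [Fintype κ] {f g : κ → V n → ℝ} (hf : ∀ k, ContDiff ℝ ∞ (f k))
    (hg : ∀ k, ContDiff ℝ ∞ (g k)) (i : Fin n) (x : V n) :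
    LR.pd i (fun y => ∑ k, f k y * g k y) x =
      ∑ k, (LR.pd i (f k) x * g k x + f k x * LR.pd i (g k) x) := by
  have h : HasFDerivAt (fun y => ∑ k, f k y * g k y)
      (∑ k, (f k x • fderiv ℝ (g k) x + g k x • fderiv ℝ (f k) x)) x :=
    HasFDerivAt.fun_sum fun k _ => (hasF (hf k) x).mul (hasF (hg k) x)
  unfold LR.pd
  rw [h.fderiv]
  simp only [_root_.sum_apply, _root_.add_apply, _root_.smul_apply, smul_eq_mul]
  refine Finset.sum_congr rfl fun k _ => ?_
  ring

theorem LL2_eq {s : MF n} (hs : SmM s) {A : Cv n ι} {ε : ℝ} (hA : Sk A ε) {φ : ι → V n → ℝ}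
    (hφ : ∀ α, ContDiff ℝ ∞ (φ α)) (α : ι) (x : V n) :
    LL2 s A φ α x = ∑ β, (∑ i, ∑ j, c2 s β α i j x * LR.pd i (LR.pd j (φ β)) x +
      ∑ i, c1 s A β α i x * LR.pd i (φ β) x + c0 s A β α x * φ β x) := by
  -- the inner function
  have g1 : ∀ i γ y, ∑ j, s y i j * DD A j φ γ y =
      ∑ j, s y i j * LR.pd j (φ γ) y + ∑ β, BB s A i γ β y * φ β y := by
    intro i γ y
    simp only [DD, mul_add, Finset.sum_add_distrib, BB, Finset.sum_mul, Finset.mul_sum]
    congr 1
    rw [Finset.sum_comm]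
    exact Finset.sum_congr rfl fun β _ => Finset.sum_congr rfl fun j _ => by ring
  have g2 : ∀ i, LR.pd i (fun y => ∑ j, s y i j * DD A j φ α y) x =
      ∑ j, (LR.pd i (fun y => s y i j) x * LR.pd j (φ α) x +
        s x i j * LR.pd i (LR.pd j (φ α)) x) +
      ∑ β, (LR.pd i (BB s A i α β) x * φ β x + BB s A i α β x * LR.pd i (φ β) x) := by
    intro i
    have h1 : (fun y => ∑ j, s y i j * DD A j φ α y) = fun y =>
        (fun y => ∑ j, s y i j * LR.pd j (φ α) y) y + (fun y => ∑ β, BB s A i α β y * φ β y) y := by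
      funext y; exact g1 i α y
    have s1 : ContDiff ℝ ∞ (fun y => ∑ j, s y i j * LR.pd j (φ α) y) :=
      ContDiff.sum fun j _ => (hs i j).mul (pd_smooth (hφ α) j)
    have s2 : ContDiff ℝ ∞ (fun y => ∑ β, BB s A i α β y * φ β y) :=
      ContDiff.sum fun β _ => (BB_smooth hs hA i α β).mul (hφ β)
    rw [h1, pd_add s1 s2, pd_fsum (fun j => hs i j) (fun j => pd_smooth (hφ α) j),
      pd_fsum (fun β => BB_smooth hs hA i α β) (fun β => hφ β)]
  have L1 : LL2 s A φ α x = ∑ i, ((∑ j, (LR.pd i (fun y => s y i j) x * LR.pd j (φ α) x +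
        s x i j * LR.pd i (LR.pd j (φ α)) x) +
      ∑ β, (LR.pd i (BB s A i α β) x * φ β x + BB s A i α β x * LR.pd i (φ β) x)) +
      ∑ γ, A i x α γ * (∑ j, s x i j * LR.pd j (φ γ) x + ∑ β, BB s A i γ β x * φ β x)) := by
    unfold LL2
    refine Finset.sum_congr rfl fun i _ => ?_
    conv_lhs => unfold DD
    change LR.pd i (fun y => ∑ j, s y i j * DD A j φ α y) x +
      ∑ γ, A i x α γ * (∑ j, s x i j * DD A j φ γ x) = _
    rw [g2 i]
    simp only [g1]
  rw [L1]
  simp only [Finset.sum_add_distrib, mul_add]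
  -- right hand side pieces
  have r2 : ∑ β, ∑ i, ∑ j, c2 s β α i j x * LR.pd i (LR.pd j (φ β)) x =
      ∑ i, ∑ j, s x i j * LR.pd i (LR.pd j (φ α)) x := by
    rw [Finset.sum_eq_single α]
    · simp [c2]
    · intro β _ hβ; simp [c2, hβ]
    · simp
  have r1 : ∑ β, ∑ i, c1 s A β α i x * LR.pd i (φ β) x =
      ∑ i, ∑ j, LR.pd i (fun y => s y i j) x * LR.pd j (φ α) x +
      ∑ i, ∑ β, BB s A i α β x * LR.pd i (φ β) x +
      ∑ i, ∑ γ, A i x α γ * ∑ j, s x i j * LR.pd j (φ γ) x := by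
    have h1 : ∑ β, ∑ i, c1 s A β α i x * LR.pd i (φ β) x =
        ∑ β, ∑ i, (if β = α then ∑ k, LR.pd k (fun y => s y k i) x else 0) * LR.pd i (φ β) x +
        ∑ β, ∑ i, BB s A i α β x * LR.pd i (φ β) x +
        ∑ β, ∑ i, (∑ k, s x k i * A k x α β) * LR.pd i (φ β) x := by
      simp only [c1, add_mul, Finset.sum_add_distrib]
    have h2 : ∑ β, ∑ i, (if β = α then ∑ k, LR.pd k (fun y => s y k i) x else 0) *
        LR.pd i (φ β) x = ∑ i, ∑ j, LR.pd i (fun y => s y i j) x * LR.pd j (φ α) x := by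
      rw [Finset.sum_eq_single α]
      · simp only [if_true, Finset.sum_mul]
        rw [Finset.sum_comm]
      · intro β _ hβ; simp [hβ]
      · simp
    have h3 : ∑ β, ∑ i, (∑ k, s x k i * A k x α β) * LR.pd i (φ β) x =
        ∑ i, ∑ γ, A i x α γ * ∑ j, s x i j * LR.pd j (φ γ) x := by
      rw [Finset.sum_comm (s := (Finset.univ : Finset (Fin n))) (t := (Finset.univ : Finset ι))]
      refine Finset.sum_congr rfl fun β _ => ?_
      simp only [Finset.sum_mul, Finset.mul_sum]
      rw [Finset.sum_comm]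
      exact Finset.sum_congr rfl fun k _ => Finset.sum_congr rfl fun i _ => by ring
    rw [h1, h2, h3, Finset.sum_comm (s := (Finset.univ : Finset ι))]
  have r0 : ∑ β, c0 s A β α x * φ β x =
      ∑ i, ∑ β, LR.pd i (BB s A i α β) x * φ β x +
      ∑ i, ∑ γ, A i x α γ * ∑ β, BB s A i γ β x * φ β x := by
    simp only [c0, Finset.sum_mul, add_mul, Finset.sum_add_distrib, Finset.mul_sum]
    congr 1
    · rw [Finset.sum_comm]
    · rw [Finset.sum_comm]
      refine Finset.sum_congr rfl fun i _ => ?_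
      rw [Finset.sum_comm]
      exact Finset.sum_congr rfl fun γ _ => Finset.sum_congr rfl fun β _ => by ring
  rw [r2, r1, r0]
  ring

omit [DecidableEq ι] in
theorem db_eq (i : Fin n) (f : V n → ℝ) : db (⇑(Pi.basisFun ℝ (Fin n))) i f = LR.pd i f := by
  funext x
  simp [db, LR.pd]

/-- regularity of weak solutions -/
theorem regular (hyp : RowHYP) {s : MF n} {ε : ℝ} (hb : Bd s ε) (hε' : ε * n ≤ 1 / 2)
    (hs : SmM s) {A : Cv n ι} {ε₁ : ℝ} (hA : Sk A ε₁) (w F : ι → V n → ℝ)
    (hwm : ∀ α, AEStronglyMeasurable (w α) volume) (hwi : ∀ α, Integrable (fun x => w α x ^ 2))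
    (hF : ∀ α, ContDiffOn ℝ ∞ (F α) (B2 n))
    (hweak : ∀ φ : ι → V n → ℝ, TV φ → ∫ x, ∑ α, w α x * LL2 s A φ α x =
      ∫ x, ∑ α, F α x * φ α x) :
    ∃ u : ι → V n → ℝ, (∀ α, ContDiffOn ℝ ∞ (u α) (B2 n)) ∧
      ∀ α, ∀ᵐ x ∂(mu n), u α x = w α x := by
  obtain ⟨w', hw's, hw'e⟩ := hyp (Fin n) (V n) volume (Pi.basisFun ℝ (Fin n)) (Fintype.card ι)
    (B2 n) isOpen_B2
    (fun p q i j x => c2 s ((Fintype.equivFin ι).symm p) ((Fintype.equivFin ι).symm q) i j x)
    (fun p q i x => c1 s A ((Fintype.equivFin ι).symm p) ((Fintype.equivFin ι).symm q) i x)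
    (fun p q x => c0 s A ((Fintype.equivFin ι).symm p) ((Fintype.equivFin ι).symm q) x)
    (fun _ _ i j => (c2_smooth hs _ _ i j).contDiffOn)
    (fun _ _ i => (c1_smooth hs hA _ _ i).contDiffOn)
    (fun _ _ => (c0_smooth hs hA _ _).contDiffOn)
    (by
      intro z _ ξ hξ
      have h1 := quad_ge hb hε' z ξ
      have h2 : 0 < ∑ i, ξ i ^ 2 := by
        obtain ⟨i, hi⟩ := Function.ne_iff.1 hξ
        exact Finset.sum_pos' (fun i _ => _root_.sq_nonneg _) ⟨i, Finset.mem_univ i, by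
          have : ξ i ≠ 0 := hi
          positivity⟩
      have h3 : (Matrix.of fun (p q : Fin (Fintype.card ι)) => ∑ i, ∑ j,
          c2 s ((Fintype.equivFin ι).symm p) ((Fintype.equivFin ι).symm q) i j z * ξ i * ξ j) =
          (∑ i, ∑ j, s z i j * ξ i * ξ j) • (1 : Matrix (Fin (Fintype.card ι))
            (Fin (Fintype.card ι)) ℝ) := by
        ext p q
        by_cases hpq : p = q
        · subst hpq; simp [c2]
        · have hpq' : (Fintype.equivFin ι).symm p ≠ (Fintype.equivFin ι).symm q := fun h =>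
            hpq ((Fintype.equivFin ι).symm.injective h)
          simp [c2, hpq', hpq]
      rw [h3, Matrix.det_smul, Matrix.det_one, mul_one]
      exact pow_ne_zero _ (by linarith))
    (fun q => w ((Fintype.equivFin ι).symm q)) (fun q => F ((Fintype.equivFin ι).symm q))
    (fun q => hwm _) (fun q k _ _ => (hwi _).integrableOn) (fun q => hF _)
    (by
      intro φ hφ
      have h : TV (fun α => φ (Fintype.equivFin ι α)) := fun α =>
        ⟨(hφ _).1, (hφ _).2.1, (hφ _).2.2⟩
      have h1 := hweak _ h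
      have e1 : ∀ z, ∑ q, w ((Fintype.equivFin ι).symm q) z * ∑ p, op2 (⇑(Pi.basisFun ℝ (Fin n)))
          (fun i j x => c2 s ((Fintype.equivFin ι).symm p) ((Fintype.equivFin ι).symm q) i j x)
          (fun i x => c1 s A ((Fintype.equivFin ι).symm p) ((Fintype.equivFin ι).symm q) i x)
          (fun x => c0 s A ((Fintype.equivFin ι).symm p) ((Fintype.equivFin ι).symm q) x)
          (φ p) z = ∑ α, w α z * LL2 s A (fun α => φ (Fintype.equivFin ι α)) α z := by
        intro z
        rw [← (Fintype.equivFin ι).symm.sum_comp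
          (fun α => w α z * LL2 s A (fun α => φ (Fintype.equivFin ι α)) α z)]
        refine Finset.sum_congr rfl fun q _ => ?_
        congr 1
        rw [LL2_eq hs hA (fun α => (h α).sm)]
        rw [← (Fintype.equivFin ι).symm.sum_comp]
        refine Finset.sum_congr rfl fun p _ => ?_
        simp only [op2, db_eq, Equiv.apply_symm_apply]
      have e2 : ∀ z, ∑ p, F ((Fintype.equivFin ι).symm p) z * φ p z =
          ∑ α, F α z * φ (Fintype.equivFin ι α) z := by
        intro z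
        rw [← (Fintype.equivFin ι).symm.sum_comp]
        simp only [Equiv.apply_symm_apply]
      rw [integral_congr_ae (Eventually.of_forall e1), integral_congr_ae (Eventually.of_forall e2)]
      exact h1)
  refine ⟨fun α => w' (Fintype.equivFin ι α), fun α => hw's _, fun α => ?_⟩
  rw [ae_restrict_iff' isOpen_B2.measurableSet]
  filter_upwards [hw'e (Fintype.equivFin ι α)] with x hx hB
  have := hx hB
  simpa using this

end Vale.Agent.P088.HY.H285
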