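import Vale.Agent.P088.R2.H285.J.Dirg

/-!
# P088, row DIRG: the matrix version
-/

open MeasureTheory Set Filter Topology
open scoped ContDiff Matrix RealInnerProductSpace

noncomputable section

namespace Vale.Agent.P088.HY.H285

open Vale.Agent.P088.LR

variable {n N : ℕ}

/-- the connection on matrices as a connection on vectors -/
def cA (A₁ A₂ : Cn' n N) : Cv n (Fin N × Fin N) := fun i x α β =>
  (if α.2 = β.2 then A₁ i x α.1 β.1 else 0) - (if α.1 = β.1 then A₂ i x β.2 α.2 else 0)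

/-- a matrix function as a vector -/
def vc (X : Mx n N) : Fin N × Fin N → V n → ℝ := fun α x => X x α.1 α.2

theorem DD_vc (A₁ A₂ : Cn' n N) (i : Fin n) (X : Mx n N) (p q : Fin N) (x : V n) :
    DD (cA A₁ A₂) i (vc X) (p, q) x = Dh A₁ A₂ i X x p q := by
  simp only [DD, cA, Dh, Matrix.sub_apply, Matrix.add_apply, Matrix.of_apply,
    Matrix.mul_apply, sub_mul, Finset.sum_sub_distrib, Fintype.sum_prod_type, ite_mul, zero_mul]
  have e1 : ∑ p' : Fin N, ∑ q' : Fin N, (if q = q' then A₁ i x p p' * vc X (p', q') x else 0) =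
      ∑ j, A₁ i x p j * X x j q := by
    refine Finset.sum_congr rfl fun p' _ => ?_
    simp [vc]
  have e2 : ∑ p' : Fin N, ∑ q' : Fin N, (if p = p' then A₂ i x q' q * vc X (p', q') x else 0) =
      ∑ j, X x p j * A₂ i x j q := by
    rw [Finset.sum_comm]
    refine Finset.sum_congr rfl fun q' _ => ?_
    simp [mul_comm, vc]
  rw [e1, e2]
  have e3 : vc X (p, q) = fun y => X y p q := rfl
  rw [e3]
  ring

theorem cA_Sk {A₁ A₂ : Cn' n N} {K : ℕ} {ε : ℝ} (h₁ : AOk K ε A₁) (h₂ : AOk K ε A₂)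
    (hε : 0 ≤ ε) : Sk (cA A₁ A₂) (2 * ε) := by
  have b : ∀ {A : Cn' n N}, AOk K ε A → ∀ i x p q, |A i x p q| ≤ ε := by
    intro A h i x p q
    have := h.bd i p q 0 (Nat.zero_le _) x
    rwa [norm_iteratedFDeriv_zero, Real.norm_eq_abs] at this
  refine ⟨fun i α β => ?_, fun i x α β => ?_, fun i x α β => ?_⟩
  · unfold cA
    refine ContDiff.sub ?_ ?_
    · by_cases h : α.2 = β.2
      · simpa [h] using h₁.sm i α.1 β.1
      · simpa [h] using contDiff_const
    · by_cases h : α.1 = β.1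
      · simpa [h] using h₂.sm i β.2 α.2
      · simpa [h] using contDiff_const
  · have s₁ : A₁ i x α.1 β.1 = - A₁ i x β.1 α.1 := by
      have := congrFun (congrFun (h₁.sk i x) β.1) α.1
      simpa [Matrix.transpose_apply] using this
    have s₂ : A₂ i x β.2 α.2 = - A₂ i x α.2 β.2 := by
      have := congrFun (congrFun (h₂.sk i x) α.2) β.2
      simpa [Matrix.transpose_apply] using this
    unfold cA
    rw [s₁, s₂]
    by_cases c1 : α.2 = β.2 <;> by_cases c2 : α.1 = β.1 <;>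
      simp [c1, c2, eq_comm (a := β.2), eq_comm (a := β.1)] <;> ring
  · unfold cA
    refine (abs_sub _ _).trans ?_
    have a1 : |if α.2 = β.2 then A₁ i x α.1 β.1 else 0| ≤ ε := by
      split_ifs
      · exact b h₁ i x _ _
      · simpa using hε
    have a2 : |if α.1 = β.1 then A₂ i x β.2 α.2 else 0| ≤ ε := by
      split_ifs
      · exact b h₂ i x _ _
      · simpa using hε
    linarith

theorem rowDIRG (hyp : RowHYP) : RowDIRG := by
  intro n N hn
  have hn0 : (1 : ℝ) ≤ n := by exact_mod_cast (by omega : 1 ≤ n)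
  have hN0 : (0 : ℝ) ≤ (N : ℝ) ^ 2 := by positivity
  set ε : ℝ := 1 / (8 * n * ((N : ℝ) ^ 2 + 1)) with hεdef
  have hεpos : 0 < ε := by positivity
  refine ⟨0, ε, hεpos, fun s A₁ A₂ hs hsy hcl h₁ h₂ a ha ha0 => ?_⟩
  have hε1 : ε ≤ 1 := by
    rw [hεdef, div_le_one (by positivity)]
    nlinarith
  have hε2 : ε * n ≤ 1 / 2 := by
    rw [hεdef, div_mul_eq_mul_div, div_le_div_iff₀ (by positivity) (by norm_num)]
    nlinarith
  have hε3 : 16 * n * (Fintype.card (Fin N × Fin N) : ℝ) ^ 2 * (2 * ε) ^ 2 ≤ 1 := by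
    simp only [Fintype.card_prod, Fintype.card_fin, Nat.cast_mul]
    have e1 : 16 * (n : ℝ) * ((N : ℝ) * N) ^ 2 * (2 * ε) ^ 2 =
        ((N : ℝ) ^ 2) ^ 2 / (n * ((N : ℝ) ^ 2 + 1) ^ 2) := by
      rw [hεdef]
      field_simp
      ring
    rw [e1, div_le_one (by positivity)]
    have : ((N : ℝ) ^ 2) ^ 2 ≤ ((N : ℝ) ^ 2 + 1) ^ 2 := by nlinarith
    nlinarith [sq_nonneg ((N : ℝ) ^ 2 + 1)]
  have hb : Bd s ε := by
    refine ⟨fun i j => (hs i j).continuous, fun i j x => ?_⟩
    have := hcl i j 0 (Nat.zero_le _) x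
    rwa [norm_iteratedFDeriv_zero, Real.norm_eq_abs] at this
  have hA := cA_Sk h₁ h₂ hεpos.le
  obtain ⟨u, hu, hu1, hu2, hu3, hu4⟩ := vec hyp hn hb hε1 hε2 hs hsy hA hε3
    (fun i α x => a i x α.1 α.2) (fun i α => ha i α.1 α.2)
    (fun x hx i α => by rw [ha0 x hx i]; rfl)
  set Ψ : Mx n N := fun x => Matrix.of fun p q => u (p, q) x with hΨ
  have hvc : vc Ψ = u := by
    funext α x
    simp [vc, hΨ]
  have hD : ∀ i x p q, Dh A₁ A₂ i Ψ x p q = DD (cA A₁ A₂) i u (p, q) x := by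
    intro i x p q
    rw [← DD_vc, hvc]
  refine ⟨Ψ, fun p q => hu (p, q), fun p q => hu1 (p, q), fun i p q => ?_, fun x hx => ?_, ?_⟩
  · have := hu2 i (p, q)
    refine this.congr (Eventually.of_forall fun x => ?_)
    simp only [Matrix.add_apply, hD]
  · ext p q
    rw [Matrix.zero_apply, ← hu3 x hx (p, q)]
    unfold Dvh
    rw [Matrix.sum_apply]
    refine Finset.sum_congr rfl fun i _ => ?_
    rw [← DD_vc]
    have : vc (fun y => ∑ j, s y i j • (a j y + Dh A₁ A₂ j Ψ y)) = fun β y =>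
        ∑ j, s y i j * (a j y β.1 β.2 + DD (cA A₁ A₂) j u β y) := by
      funext β y
      change (∑ j, s y i j • (a j y + Dh A₁ A₂ j Ψ y)) β.1 β.2 = _
      rw [Matrix.sum_apply]
      refine Finset.sum_congr rfl fun j _ => ?_
      rw [Matrix.smul_apply, Matrix.add_apply, hD, smul_eq_mul]
    rw [this]
  · have e1 : ∀ x, ipc s (fun i y => a i y + Dh A₁ A₂ i Ψ y)
        (fun i y => a i y + Dh A₁ A₂ i Ψ y) x = ∑ i, ∑ j, s x i j * ∑ α : Fin N × Fin N,
          (a i x α.1 α.2 + DD (cA A₁ A₂) i u α x) * (a j x α.1 α.2 + DD (cA A₁ A₂) j u α x) := by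
      intro x
      unfold ipc
      refine Finset.sum_congr rfl fun i _ => Finset.sum_congr rfl fun j _ => ?_
      rw [Fintype.sum_prod_type]
      simp only [Matrix.add_apply, hD]
    have e2 : ∀ x, ipc s (fun i y => a i y + Dh A₁ A₂ i Ψ y) a x =
        ∑ i, ∑ j, s x i j * ∑ α : Fin N × Fin N,
          (a i x α.1 α.2 + DD (cA A₁ A₂) i u α x) * a j x α.1 α.2 := by
      intro x
      unfold ipc
      refine Finset.sum_congr rfl fun i _ => Finset.sum_congr rfl fun j _ => ?_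
      rw [Fintype.sum_prod_type]
      simp only [Matrix.add_apply, hD]
    simp only [e1, e2]
    exact hu4

end Vale.Agent.P088.HY.H285
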