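import Vale.Agent.P088.R2.H285.J.Weak

/-!
# P088, row DIRG: the covariant Dirichlet problem, vector version
-/

open MeasureTheory Set Filter Topology
open scoped ContDiff Matrix RealInnerProductSpace

noncomputable section

namespace Vale.Agent.P088.HY.H285

open Vale.Agent.P088.LR

variable {n : ℕ} {ι : Type} [Fintype ι]

theorem T2.memLp {f : V n → ℝ} (h : T2 f) : MemLp f 2 (mu n) :=
  h.sm.continuous.memLp_of_hasCompactSupport h.cs

theorem comp_memLp (U : LL n ι) (o : Option (Fin n) × ι) : MemLp (fun x => U x o) 2 (mu n) := by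
  refine MemLp.of_le (Lp.memLp U) ?_ (Eventually.of_forall fun x => ?_)
  · exact (EuclideanSpace.proj (𝕜 := ℝ) o).continuous.comp_aestronglyMeasurable
      (Lp.aestronglyMeasurable U)
  · rw [Real.norm_eq_abs]
    exact abs_le_norm _ _

theorem integrable_comp_mul (U : LL n ι) (o : Option (Fin n) × ι) {f : V n → ℝ} (h : T2 f) :
    Integrable (fun x => U x o * f x) (mu n) :=
  MemLp.integrable_mul (comp_memLp U o) h.memLp

theorem integrable_ro_mul (U : LL n ι) (o : Option (Fin n) × ι) {f : V n → ℝ} (h : T2 f) :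
    Integrable (fun x => ro x * U x o * f x) (mu n) := by
  have := integrable_comp_mul U o (T2.mul contDiff_ro.contDiffOn h)
  refine this.congr (Eventually.of_forall fun x => ?_)
  simp only; ring

theorem DD_contDiffOn {A : Cv n ι} {ε : ℝ} (hA : Sk A ε) {u : ι → V n → ℝ}
    (hu : ∀ α, ContDiffOn ℝ ∞ (u α) (B2 n)) (i : Fin n) (α : ι) :
    ContDiffOn ℝ ∞ (DD A i u α) (B2 n) :=
  (pd_contDiffOn isOpen_B2 (hu α) i).add
    (ContDiffOn.sum fun β _ => (hA.sm i α β).contDiffOn.mul (hu β))

variable [DecidableEq ι]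

/-- the test element for the weak gradient -/
def zt (A : Cv n ι) (i : Fin n) (α : ι) (φ : V n → ℝ) (x : V n) : Ev n ι :=
  mk (fun β => ro x * ((if β = α then LR.pd i φ x else 0) - A i x α β * φ x))
    (fun j β => if j = i then (if β = α then φ x else 0) else 0)

theorem zt_memLp {A : Cv n ι} {ε : ℝ} (hA : Sk A ε) {φ : V n → ℝ} (h : T2 φ) (i : Fin n) (α : ι) :
    MemLp (zt A i α φ) 2 (mu n) := by
  refine Continuous.memLp_of_hasCompactSupport ?_ ?_
  · refine continuous_mk (fun β => contDiff_ro.continuous.mul (Continuous.sub ?_ ?_))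
      fun j β => ?_
    · by_cases hb : β = α
      · simpa [hb] using (h.pd i).sm.continuous
      · simpa [hb] using continuous_const
    · exact (hA.sm i α β).continuous.mul h.sm.continuous
    · by_cases hj : j = i
      · by_cases hb : β = α
        · simpa [hj, hb] using h.sm.continuous
        · simpa [hj, hb] using continuous_const
      · simpa [hj] using continuous_const
  · refine HasCompactSupport.intro (K := tsupport φ) h.cs fun x hx => ?_
    have h1 : φ x = 0 := zero_of_notMem hx
    have h2 : LR.pd i φ x = 0 := pd_zero_of_notMem hx i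
    unfold zt
    ext o
    rcases o with ⟨o, β⟩
    cases o with
    | none => simp [h1, h2]
    | some j => simp [h1]

theorem inner_zt {A : Cv n ι} {ε : ℝ} (hA : Sk A ε) {φ : V n → ℝ} (h : T2 φ) (i : Fin n) (α : ι)
    (U : LL n ι) : ⟪(zt_memLp hA h i α).toLp _, U⟫ =
      ∫ x, (ro x * U x (none, α) * LR.pd i φ x + U x (some i, α) * φ x
        - ∑ β, ro x * U x (none, β) * (A i x α β * φ x)) ∂(mu n) := by
  rw [L2.inner_def]
  refine integral_congr_ae ?_
  filter_upwards [MemLp.coeFn_toLp (zt_memLp hA h i α)] with x hx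
  rw [hx, inner_eq]
  simp only [zt, mk_none, mk_some]
  have e1 : ∑ j : Fin n, ∑ β : ι, (if j = i then (if β = α then φ x else 0) else 0) *
      U x (some j, β) = φ x * U x (some i, α) := by
    rw [Finset.sum_eq_single i]
    · rw [Finset.sum_eq_single α]
      · simp
      · intro β _ hβ; simp [hβ]
      · simp
    · intro j _ hj; simp [hj]
    · simp
  rw [e1]
  have e2 : ∑ β : ι, ro x * ((if β = α then LR.pd i φ x else 0) - A i x α β * φ x) *
      U x (none, β) = ro x * LR.pd i φ x * U x (none, α) -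
        ∑ β, ro x * U x (none, β) * (A i x α β * φ x) := by
    have : ∀ β : ι, ro x * ((if β = α then LR.pd i φ x else 0) - A i x α β * φ x) *
        U x (none, β) = (if β = α then ro x * LR.pd i φ x * U x (none, α) else 0) -
          ro x * U x (none, β) * (A i x α β * φ x) := by
      intro β
      by_cases hb : β = α
      · subst hb; simp; ring
      · simp [hb]; ring
    simp only [this, Finset.sum_sub_distrib]
    simp
  rw [e2]
  ring

theorem weak_grad {A : Cv n ι} {ε : ℝ} (hA : Sk A ε) {φ : V n → ℝ} (h : T2 φ) (i : Fin n) (α : ι)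
    {U : LL n ι} (hU : U ∈ KK hA) :
    ∫ x, U x (some i, α) * φ x ∂(mu n) = (- ∫ x, ro x * U x (none, α) * LR.pd i φ x ∂(mu n))
        + ∑ β, ∫ x, ro x * U x (none, β) * (A i x α β * φ x) ∂(mu n) := by
  have h0 : ∫ x, (ro x * U x (none, α) * LR.pd i φ x + U x (some i, α) * φ x
        - ∑ β, ro x * U x (none, β) * (A i x α β * φ x)) ∂(mu n) = 0 := by
    rw [← inner_zt hA h i]
    refine KK_induction hA (P := fun U => ⟪(zt_memLp hA h i α).toLp _, U⟫ = 0) ?_ ?_ hU
    · exact isClosed_eq (continuous_const.inner continuous_id) continuous_const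
    · intro ψ hψ
      rw [inner_zt hA h]
      have e1 : ∫ x, (ro x * (J hA hψ) x (none, α) * LR.pd i φ x +
          (J hA hψ) x (some i, α) * φ x
          - ∑ β, ro x * (J hA hψ) x (none, β) * (A i x α β * φ x)) ∂(mu n) =
          ∫ x, (ψ α x * LR.pd i φ x + LR.pd i (ψ α) x * φ x) ∂(mu n) := by
        refine integral_congr_ae ?_
        filter_upwards [J_coe hA hψ, ae_restrict_mem isOpen_B2.measurableSet] with x hx hB
        rw [hx]
        have hr := (ro_pos hB).ne'
        simp only [jet, mk_none, mk_some, DD]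
        have e3 : ∀ β, ro x * (ψ β x / ro x) = ψ β x := fun β => by field_simp
        simp only [e3, add_mul, Finset.sum_mul]
        have e4 : ∑ β, A i x α β * ψ β x * φ x = ∑ β, ψ β x * (A i x α β * φ x) :=
          Finset.sum_congr rfl fun β _ => by ring
        rw [e4]
        ring
      rw [e1]
      have h1 : T2 fun x => ψ α x * LR.pd i φ x := T2.mul (hψ α).sm.contDiffOn (h.pd i)
      have h2 : T2 fun x => LR.pd i (ψ α) x * φ x := T2.mul ((hψ α).pd i).sm.contDiffOn h
      rw [integral_add h1.integrable.restrict h2.integrable.restrict, integral_mu_T2 h1,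
        integral_mu_T2 h2, ibp (hψ α).sm.contDiffOn h i]
      ring
  have i1 := integrable_ro_mul U (none, α) (h.pd i)
  have i2 := integrable_comp_mul U (some i, α) h
  have i3 : ∀ β, Integrable (fun x => ro x * U x (none, β) * (A i x α β * φ x)) (mu n) :=
    fun β => integrable_ro_mul U (none, β) (T2.mul (hA.sm i α β).contDiffOn h)
  have i4 : Integrable (fun x => ∑ β, ro x * U x (none, β) * (A i x α β * φ x)) (mu n) :=
    integrable_finsetSum _ fun β _ => i3 β
  have i12 : Integrable (fun x => ro x * U x (none, α) * LR.pd i φ x + U x (some i, α) * φ x)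
      (mu n) := i1.add i2
  rw [integral_sub i12 i4, integral_add i1 i2, integral_finsetSum _ fun β _ => i3 β] at h0
  linarith

omit [DecidableEq ι] in
/-- integration by parts with the covariant derivative -/
theorem ibpA {A : Cv n ι} {ε : ℝ} (hA : Sk A ε) {Λ : ι → V n → ℝ}
    (hΛ : ∀ α, ContDiffOn ℝ ∞ (Λ α) (B2 n)) {φ : ι → V n → ℝ} (h : TV φ) (j : Fin n) :
    ∫ x, ∑ α, Λ α x * DD A j φ α x = - ∫ x, ∑ α, DD A j Λ α x * φ α x := by
  have t1 : ∀ α, T2 fun x => Λ α x * LR.pd j (φ α) x := fun α => T2.mul (hΛ α) ((h α).pd j)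
  have t2 : ∀ α β, T2 fun x => Λ α x * (A j x α β * φ β x) := fun α β =>
    T2.mul (hΛ α) (T2.mul (hA.sm j α β).contDiffOn (h β))
  have t3 : ∀ α, T2 fun x => LR.pd j (Λ α) x * φ α x := fun α =>
    T2.mul (pd_contDiffOn isOpen_B2 (hΛ α) j) (h α)
  have e1 : ∫ x, ∑ α, Λ α x * DD A j φ α x =
      (∑ α, ∫ x, Λ α x * LR.pd j (φ α) x) + ∫ x, ∑ α, ∑ β, Λ α x * (A j x α β * φ β x) := by
    rw [← integral_finsetSum _ fun α _ => (t1 α).integrable, ← integral_add
      (T2.sum _ fun α _ => t1 α).integrable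
      (T2.sum _ fun α _ => T2.sum _ fun β _ => t2 α β).integrable]
    refine integral_congr_ae (Eventually.of_forall fun x => ?_)
    simp only [DD, mul_add, Finset.sum_add_distrib, Finset.mul_sum]
  have t4 : ∀ α β, T2 fun x => (A j x α β * Λ β x) * φ α x := fun α β =>
    T2.mul ((hA.sm j α β).contDiffOn.mul (hΛ β)) (h α)
  have e2 : ∫ x, ∑ α, DD A j Λ α x * φ α x =
      (∑ α, ∫ x, LR.pd j (Λ α) x * φ α x) + ∫ x, ∑ α, ∑ β, (A j x α β * Λ β x) * φ α x := by
    rw [← integral_finsetSum _ fun α _ => (t3 α).integrable, ← integral_add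
      (T2.sum _ fun α _ => t3 α).integrable
      (T2.sum _ fun α _ => T2.sum _ fun β _ => t4 α β).integrable]
    refine integral_congr_ae (Eventually.of_forall fun x => ?_)
    simp only [DD, add_mul, Finset.sum_add_distrib, Finset.sum_mul]
  have e3 : ∀ x, ∑ α, ∑ β, Λ α x * (A j x α β * φ β x) =
      - ∑ α, ∑ β, (A j x α β * Λ β x) * φ α x := by
    intro x
    rw [Finset.sum_comm, ← Finset.sum_neg_distrib]
    refine Finset.sum_congr rfl fun β _ => ?_
    rw [← Finset.sum_neg_distrib]
    refine Finset.sum_congr rfl fun α _ => ?_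
    rw [hA.sk j x α β]
    ring
  have e5 : ∀ α, ∫ x, Λ α x * LR.pd j (φ α) x = - ∫ x, LR.pd j (Λ α) x * φ α x := fun α =>
    ibp (hΛ α) (h α) j
  rw [e1, e2]
  simp only [e3, e5]
  rw [integral_neg, Finset.sum_neg_distrib]
  ring

/-- the second order operator -/
def LL2 (s : MF n) (A : Cv n ι) (φ : ι → V n → ℝ) (α : ι) (x : V n) : ℝ :=
  ∑ i, DD A i (fun β y => ∑ j, s y i j * DD A j φ β y) α x

omit [DecidableEq ι] in
theorem GG_T2 {s : MF n} (hs : SmM s) {A : Cv n ι} {ε : ℝ} (hA : Sk A ε) {φ : ι → V n → ℝ}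
    (h : TV φ) (i : Fin n) : TV (fun β y => ∑ j, s y i j * DD A j φ β y) := fun β =>
  T2.sum _ fun j _ => T2.mul (hs i j).contDiffOn (DD_T2 hA h j β)

omit [DecidableEq ι] in
theorem LL2_T2 {s : MF n} (hs : SmM s) {A : Cv n ι} {ε : ℝ} (hA : Sk A ε) {φ : ι → V n → ℝ}
    (h : TV φ) : TV (LL2 s A φ) := fun α =>
  T2.sum _ fun i _ => DD_T2 hA (GG_T2 hs hA h i) i α

/-- weak form of the operator -/
theorem weak_LL2 {s : MF n} {ε : ℝ} (hb : Bd s ε) (hε : ε ≤ 1) (hs : SmM s) {A : Cv n ι} {ε₁ : ℝ}
    (hA : Sk A ε₁) {U : LL n ι} (hU : U ∈ KK hA) {φ : ι → V n → ℝ} (h : TV φ) :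
    ⟪TT hb hε U, J hA h⟫ = - ∫ x, ∑ α, ro x * U x (none, α) * LL2 s A φ α x ∂(mu n) := by
  set G : Fin n → ι → V n → ℝ := fun i β y => ∑ j, s y i j * DD A j φ β y with hG
  have hGT : ∀ i, TV (G i) := fun i => GG_T2 hs hA h i
  rw [inner_TT]
  have e1 : ∫ x, ∑ i, ∑ j, s x i j * ∑ α, U x (some i, α) * (J hA h) x (some j, α) ∂(mu n) =
      ∫ x, ∑ i, ∑ α, U x (some i, α) * G i α x ∂(mu n) := by
    refine integral_congr_ae ?_
    filter_upwards [J_coe hA h] with x hx
    rw [hx]
    refine Finset.sum_congr rfl fun i _ => ?_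
    simp only [hG, jet, mk_some, Finset.mul_sum]
    rw [Finset.sum_comm]
    refine Finset.sum_congr rfl fun α _ => Finset.sum_congr rfl fun j _ => ?_
    ring
  have i1 : ∀ i α, Integrable (fun x => U x (some i, α) * G i α x) (mu n) := fun i α =>
    integrable_comp_mul U _ (hGT i α)
  have i2 : ∀ i α, Integrable (fun x => ro x * U x (none, α) * LR.pd i (G i α) x) (mu n) :=
    fun i α => integrable_ro_mul U _ ((hGT i α).pd i)
  have i3 : ∀ i α β, Integrable (fun x => ro x * U x (none, β) * (A i x α β * G i α x)) (mu n) :=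
    fun i α β => integrable_ro_mul U _ (T2.mul (hA.sm i α β).contDiffOn (hGT i α))
  rw [e1, integral_finsetSum _ fun i _ => integrable_finsetSum _ fun α _ => i1 i α]
  have e2 : ∀ i, ∫ x, ∑ α, U x (some i, α) * G i α x ∂(mu n) =
      ∫ x, (- ∑ α, ro x * U x (none, α) * LR.pd i (G i α) x +
        ∑ α, ∑ β, ro x * U x (none, β) * (A i x α β * G i α x)) ∂(mu n) := by
    intro i
    have j1 : Integrable (fun x => - ∑ α, ro x * U x (none, α) * LR.pd i (G i α) x) (mu n) :=
      (integrable_finsetSum _ fun α _ => i2 i α).neg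
    rw [integral_finsetSum _ fun α _ => i1 i α, integral_add j1
      (integrable_finsetSum _ fun α _ => integrable_finsetSum _ fun β _ => i3 i α β),
      integral_neg, integral_finsetSum _ fun α _ => i2 i α,
      integral_finsetSum _ fun α _ => integrable_finsetSum _ fun β _ => i3 i α β,
      ← Finset.sum_neg_distrib, ← Finset.sum_add_distrib]
    refine Finset.sum_congr rfl fun α _ => ?_
    rw [weak_grad hA (hGT i α) i α hU, integral_finsetSum _ fun β _ => i3 i α β]
  simp only [e2]
  rw [← integral_finsetSum, ← integral_neg]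
  · refine integral_congr_ae (Eventually.of_forall fun x => ?_)
    have h1 : ∀ α, LL2 s A φ α x = ∑ i, (LR.pd i (G i α) x + ∑ β, A i x α β * G i β x) :=
      fun α => rfl
    simp only [h1]
    have h2 : ∑ α, ro x * U x (none, α) * ∑ i, (LR.pd i (G i α) x + ∑ β, A i x α β * G i β x) =
        ∑ i, ∑ α, ro x * U x (none, α) * (LR.pd i (G i α) x + ∑ β, A i x α β * G i β x) := by
      rw [Finset.sum_comm]
      exact Finset.sum_congr rfl fun α _ => Finset.mul_sum _ _ _
    rw [h2, ← Finset.sum_neg_distrib]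
    refine Finset.sum_congr rfl fun i _ => ?_
    simp only [mul_add, Finset.sum_add_distrib, neg_add]
    congr 1
    rw [Finset.sum_comm, ← Finset.sum_neg_distrib]
    refine Finset.sum_congr rfl fun α _ => ?_
    rw [Finset.mul_sum, ← Finset.sum_neg_distrib]
    refine Finset.sum_congr rfl fun β _ => ?_
    rw [hA.sk i x β α]
    ring
  · intro i _
    exact (integrable_finsetSum _ fun α _ => i2 i α).neg.add
      (integrable_finsetSum _ fun α _ => integrable_finsetSum _ fun β _ => i3 i α β)

end Vale.Agent.P088.HY.H285
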