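import Vale.Agent.P088.R2.H285.J.Calc

/-!
# P088, row DIRG: weak solution of the covariant Dirichlet problem (Lax-Milgram), vector version
-/

open MeasureTheory Set Filter Topology
open scoped ContDiff Matrix RealInnerProductSpace

noncomputable section

namespace Vale.Agent.P088.HY.H285

open Vale.Agent.P088.LR

variable {n : ℕ} {ι : Type} [Fintype ι]

/-- values `(a, b_1, ..., b_n)` -/
abbrev Ev (n : ℕ) (ι : Type) [Fintype ι] := EuclideanSpace ℝ (Option (Fin n) × ι)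

def mk (a : ι → ℝ) (b : Fin n → ι → ℝ) : Ev n ι :=
  WithLp.toLp 2 (fun o => o.1.elim (a o.2) (fun i => b i o.2))

@[simp] theorem mk_none (a : ι → ℝ) (b : Fin n → ι → ℝ) (α : ι) : mk a b (none, α) = a α := rfl
@[simp] theorem mk_some (a : ι → ℝ) (b : Fin n → ι → ℝ) (i : Fin n) (α : ι) :
    mk a b (some i, α) = b i α := rfl

theorem inner_eq (v w : Ev n ι) : ⟪v, w⟫ = ∑ α, v (none, α) * w (none, α) +
    ∑ i, ∑ α, v (some i, α) * w (some i, α) := by
  rw [PiLp.inner_apply, Fintype.sum_prod_type, Fintype.sum_option]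
  simp [mul_comm]

theorem norm_sq_eq (v : Ev n ι) : ‖v‖ ^ 2 = ∑ α, v (none, α) ^ 2 +
    ∑ i, ∑ α, v (some i, α) ^ 2 := by
  rw [← real_inner_self_eq_norm_sq, inner_eq]
  simp [pow_two]

theorem abs_le_norm (v : Ev n ι) (o : Option (Fin n) × ι) : |v o| ≤ ‖v‖ := by
  have := PiLp.norm_apply_le v o
  simpa using this

theorem norm_mk_le (a : ι → ℝ) (b : Fin n → ι → ℝ) :
    ‖mk a b‖ ≤ ∑ α, |a α| + ∑ i, ∑ α, |b i α| := by
  have h0 : 0 ≤ ∑ α, |a α| := Finset.sum_nonneg fun α _ => abs_nonneg _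
  have h0' : 0 ≤ ∑ i, ∑ α, |b i α| :=
    Finset.sum_nonneg fun i _ => Finset.sum_nonneg fun α _ => abs_nonneg _
  refine abs_le_of_sq_le_sq' ?_ (by positivity) |>.2
  rw [norm_sq_eq]
  simp only [mk_none, mk_some]
  have h1 : ∑ α, a α ^ 2 ≤ (∑ α, |a α|) ^ 2 := by
    have := Finset.sum_sq_le_sq_sum_of_nonneg (s := Finset.univ) (f := fun α => |a α|)
      (fun α _ => abs_nonneg _)
    simpa using this
  have h2 : ∑ i, ∑ α, b i α ^ 2 ≤ (∑ i, ∑ α, |b i α|) ^ 2 := by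
    have h3 : ∀ i, ∑ α, b i α ^ 2 ≤ (∑ α, |b i α|) ^ 2 := by
      intro i
      have := Finset.sum_sq_le_sq_sum_of_nonneg (s := Finset.univ) (f := fun α => |b i α|)
        (fun α _ => abs_nonneg _)
      simpa using this
    refine (Finset.sum_le_sum fun i _ => h3 i).trans ?_
    exact Finset.sum_sq_le_sq_sum_of_nonneg (s := Finset.univ) (f := fun i => ∑ α, |b i α|)
      (fun i _ => Finset.sum_nonneg fun α _ => abs_nonneg _)
  nlinarith [mul_nonneg h0 h0']

theorem continuous_mk {X : Type*} [TopologicalSpace X] {a : X → ι → ℝ} {b : X → Fin n → ι → ℝ}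
    (ha : ∀ α, Continuous fun x => a x α) (hb : ∀ i α, Continuous fun x => b x i α) :
    Continuous fun x => mk (a x) (b x) := by
  refine (PiLp.continuous_toLp 2 _).comp (continuous_pi fun o => ?_)
  rcases o with ⟨o, α⟩
  cases o with
  | none => exact ha α
  | some i => exact hb i α

theorem aesm_mk {X : Type*} [MeasurableSpace X] {μ : Measure X} {a : X → ι → ℝ}
    {b : X → Fin n → ι → ℝ} (ha : ∀ α, AEStronglyMeasurable (fun x => a x α) μ)
    (hb : ∀ i α, AEStronglyMeasurable (fun x => b x i α) μ) :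
    AEStronglyMeasurable (fun x => mk (a x) (b x)) μ := by
  refine (PiLp.continuous_toLp 2 _).comp_aestronglyMeasurable
    (f := fun x (o : Option (Fin n) × ι) => o.1.elim (a x o.2) (fun i => b x i o.2)) ?_
  refine (aemeasurable_pi_lambda _ fun o => ?_).aestronglyMeasurable
  rcases o with ⟨o, α⟩
  cases o with
  | none => exact (ha α).aemeasurable
  | some i => exact (hb i α).aemeasurable

/-- the measure on the ball -/
abbrev mu (n : ℕ) : Measure (V n) := volume.restrict (B2 n)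

/-- the Hilbert space -/
abbrev LL (n : ℕ) (ι : Type) [Fintype ι] := Lp (Ev n ι) 2 (mu n)

/-- connections on vectors -/
abbrev Cv (n : ℕ) (ι : Type) := Fin n → V n → ι → ι → ℝ

/-- small smooth skew connections -/
structure Sk (A : Cv n ι) (ε : ℝ) : Prop where
  sm : ∀ i α β, ContDiff ℝ ∞ fun x => A i x α β
  sk : ∀ i x α β, A i x α β = - A i x β α
  bd : ∀ i x α β, |A i x α β| ≤ ε

/-- covariant derivative -/
def DD (A : Cv n ι) (i : Fin n) (u : ι → V n → ℝ) (α : ι) (x : V n) : ℝ :=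
  LR.pd i (u α) x + ∑ β, A i x α β * u β x

/-- vector valued test functions -/
abbrev TV (φ : ι → V n → ℝ) : Prop := ∀ α, T2 (φ α)

theorem DD_T2 {A : Cv n ι} {ε : ℝ} (hA : Sk A ε) {φ : ι → V n → ℝ} (h : TV φ) (i : Fin n) :
    TV (DD A i φ) := fun α =>
  ((h α).pd i).add (T2.sum _ fun β _ => T2.mul (hA.sm i α β).contDiffOn (h β))

/-- `(φ / ρ, D φ)` -/
def jet (A : Cv n ι) (φ : ι → V n → ℝ) (x : V n) : Ev n ι :=
  mk (fun α => φ α x / ro x) fun i α => DD A i φ α x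

theorem jet_continuous {A : Cv n ι} {ε : ℝ} (hA : Sk A ε) {φ : ι → V n → ℝ} (h : TV φ) :
    Continuous (jet A φ) :=
  continuous_mk (fun α => (h α).div.sm.continuous) fun i α => (DD_T2 hA h i α).sm.continuous

theorem zero_of_notMem {φ : V n → ℝ} {x : V n} (hx : x ∉ tsupport φ) : φ x = 0 :=
  image_eq_zero_of_notMem_tsupport hx

theorem hasCompactSupport_of_TV {X : Type*} [Zero X] {φ : ι → V n → ℝ} (h : TV φ) {F : V n → X}
    (hF : ∀ x, (∀ α, x ∉ tsupport (φ α)) → F x = 0) : HasCompactSupport F := by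
  refine HasCompactSupport.intro (K := ⋃ α, tsupport (φ α)) (isCompact_iUnion fun α => (h α).cs)
    fun x hx => hF x fun α hα => hx (mem_iUnion.2 ⟨α, hα⟩)

theorem pd_zero_of_notMem {φ : V n → ℝ} {x : V n} (hx : x ∉ tsupport φ) (i : Fin n) :
    LR.pd i φ x = 0 :=
  image_eq_zero_of_notMem_tsupport fun h' => hx (tsupport_fderiv_apply_subset ℝ _ h')

theorem DD_zero_of_notMem {A : Cv n ι} {φ : ι → V n → ℝ} {x : V n}
    (hx : ∀ α, x ∉ tsupport (φ α)) (i : Fin n) (α : ι) : DD A i φ α x = 0 := by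
  unfold DD
  rw [pd_zero_of_notMem (hx α)]
  simp [zero_of_notMem (hx _)]

theorem jet_cs {A : Cv n ι} {φ : ι → V n → ℝ} (h : TV φ) : HasCompactSupport (jet A φ) := by
  refine hasCompactSupport_of_TV h fun x hx => ?_
  unfold jet
  ext o
  rcases o with ⟨o, α⟩
  cases o with
  | none => simp [zero_of_notMem (hx α)]
  | some i => simp [DD_zero_of_notMem hx]

theorem jet_memLp {A : Cv n ι} {ε : ℝ} (hA : Sk A ε) {φ : ι → V n → ℝ} (h : TV φ) :
    MemLp (jet A φ) 2 (mu n) :=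
  ((jet_continuous hA h).memLp_of_hasCompactSupport (jet_cs h))

/-- the element of `LL` of a test function -/
def J {A : Cv n ι} {ε : ℝ} (hA : Sk A ε) {φ : ι → V n → ℝ} (h : TV φ) : LL n ι :=
  (jet_memLp hA h).toLp _

theorem J_coe {A : Cv n ι} {ε : ℝ} (hA : Sk A ε) {φ : ι → V n → ℝ} (h : TV φ) :
    (J hA h : V n → Ev n ι) =ᵐ[mu n] jet A φ := MemLp.coeFn_toLp _

theorem pd_add {f g : V n → ℝ} (hf : ContDiff ℝ ∞ f) (hg : ContDiff ℝ ∞ g) (i : Fin n) (x : V n) :
    LR.pd i (fun x => f x + g x) x = LR.pd i f x + LR.pd i g x := by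
  unfold LR.pd
  have := ((hf.differentiable (by simp) x).hasFDerivAt.add
    (hg.differentiable (by simp) x).hasFDerivAt).fderiv
  have h2 : (fun x => f x + g x) = f + g := rfl
  rw [h2, this]; rfl

theorem pd_const_mul {f : V n → ℝ} (hf : ContDiff ℝ ∞ f) (c : ℝ) (i : Fin n) (x : V n) :
    LR.pd i (fun x => c * f x) x = c * LR.pd i f x := by
  unfold LR.pd
  have := ((hf.differentiable (by simp) x).hasFDerivAt.const_mul c).fderiv
  rw [this]; rfl

theorem DD_add {A : Cv n ι} {f g : ι → V n → ℝ} (hf : TV f) (hg : TV g) (i : Fin n) (α : ι)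
    (x : V n) : DD A i (fun α x => f α x + g α x) α x = DD A i f α x + DD A i g α x := by
  unfold DD
  rw [pd_add (hf α).sm (hg α).sm]
  simp only [mul_add, Finset.sum_add_distrib]
  ring

theorem DD_const_mul {A : Cv n ι} {f : ι → V n → ℝ} (hf : TV f) (c : ℝ) (i : Fin n) (α : ι)
    (x : V n) : DD A i (fun α x => c * f α x) α x = c * DD A i f α x := by
  unfold DD
  rw [pd_const_mul (hf α).sm, mul_add, Finset.mul_sum]
  congr 1
  exact Finset.sum_congr rfl fun β _ => by ring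

theorem jet_add {A : Cv n ι} {f g : ι → V n → ℝ} (hf : TV f) (hg : TV g) (x : V n) :
    jet A (fun α x => f α x + g α x) x = jet A f x + jet A g x := by
  unfold jet
  ext o
  rcases o with ⟨o, α⟩
  cases o with
  | none => simp; ring
  | some i => simp [DD_add hf hg]

theorem jet_const_mul {A : Cv n ι} {f : ι → V n → ℝ} (hf : TV f) (c : ℝ) (x : V n) :
    jet A (fun α x => c * f α x) x = c • jet A f x := by
  unfold jet
  ext o
  rcases o with ⟨o, α⟩
  cases o with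
  | none => simp; ring
  | some i => simp [DD_const_mul hf]

/-- the submodule of jets of test functions -/
def M0 {A : Cv n ι} {ε : ℝ} (hA : Sk A ε) : Submodule ℝ (LL n ι) where
  carrier := {U | ∃ φ, ∃ h : TV φ, U = J hA h}
  add_mem' := by
    rintro U U' ⟨φ, h, rfl⟩ ⟨ψ, g, rfl⟩
    refine ⟨_, fun α => (h α).add (g α), ?_⟩
    unfold J
    rw [← MemLp.toLp_add]
    refine MemLp.toLp_congr _ _ (Eventually.of_forall fun x => ?_)
    simp only [Pi.add_apply, jet_add h g]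
  zero_mem' := by
    refine ⟨fun _ _ => 0, fun _ => T2.zero_fun, ?_⟩
    unfold J
    rw [← MemLp.toLp_zero (MemLp.zero' (p := 2))]
    refine MemLp.toLp_congr _ _ (Eventually.of_forall fun x => ?_)
    simp only [jet]
    ext o
    rcases o with ⟨o, α⟩
    cases o with
    | none => simp
    | some i => simp [LR.pd, DD]
  smul_mem' := by
    rintro c U ⟨φ, h, rfl⟩
    refine ⟨_, fun α => (h α).const_mul c, ?_⟩
    unfold J
    rw [← MemLp.toLp_const_smul]
    refine MemLp.toLp_congr _ _ (Eventually.of_forall fun x => ?_)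
    simp only [Pi.smul_apply, jet_const_mul h]

/-- the energy space -/
def KK {A : Cv n ι} {ε : ℝ} (hA : Sk A ε) : Submodule ℝ (LL n ι) := (M0 hA).topologicalClosure

instance {A : Cv n ι} {ε : ℝ} (hA : Sk A ε) : CompleteSpace (KK hA) :=
  (Submodule.isClosed_topologicalClosure _).completeSpace_coe

theorem J_mem {A : Cv n ι} {ε : ℝ} (hA : Sk A ε) {φ : ι → V n → ℝ} (h : TV φ) :
    J hA h ∈ KK hA := Submodule.le_topologicalClosure _ ⟨φ, h, rfl⟩

/-- a closed condition on jets of test functions holds on `KK` -/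
theorem KK_induction {A : Cv n ι} {ε : ℝ} (hA : Sk A ε) {P : LL n ι → Prop}
    (hc : IsClosed {U | P U}) (h : ∀ φ, ∀ h : TV φ, P (J hA h)) {U : LL n ι} (hU : U ∈ KK hA) :
    P U := by
  have h1 : (M0 hA : Set (LL n ι)) ⊆ {U | P U} := by
    rintro U ⟨φ, hφ, rfl⟩
    exact h φ hφ
  have h2 : closure (M0 hA : Set (LL n ι)) ⊆ {U | P U} := closure_minimal h1 hc
  exact h2 hU

/-- bounded continuous coefficients -/
structure Bd (s : MF n) (ε : ℝ) : Prop where
  ct : ∀ i j, Continuous fun x => s x i j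
  bd : ∀ i j x, |s x i j - (1 : Matrix (Fin n) (Fin n) ℝ) i j| ≤ ε

theorem Bd.abs_le {s : MF n} {ε : ℝ} (h : Bd s ε) (hε : ε ≤ 1) (i j : Fin n) (x : V n) :
    |s x i j| ≤ 2 := by
  have h1 := h.bd i j x
  have h2 : |(1 : Matrix (Fin n) (Fin n) ℝ) i j| ≤ 1 := by
    rw [Matrix.one_apply]; split_ifs <;> simp
  calc |s x i j| = |(s x i j - (1 : Matrix (Fin n) (Fin n) ℝ) i j) +
        (1 : Matrix (Fin n) (Fin n) ℝ) i j| := by ring_nf
    _ ≤ _ := abs_add_le _ _
    _ ≤ 2 := by linarith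

/-- `(a, b) ↦ (0, s b)` -/
def mt (s : MF n) (x : V n) (v : Ev n ι) : Ev n ι :=
  mk (fun _ => 0) fun j α => ∑ i, s x i j * v (some i, α)

theorem norm_mt_le {s : MF n} {ε : ℝ} (h : Bd s ε) (hε : ε ≤ 1) (x : V n) (v : Ev n ι) :
    ‖mt s x v‖ ≤ (2 * n ^ 2 * Fintype.card ι) * ‖v‖ := by
  unfold mt
  refine (norm_mk_le _ _).trans ?_
  rw [abs_zero, Finset.sum_const_zero, zero_add]
  have h1 : ∀ (j : Fin n) (α : ι), |∑ i, s x i j * v (some i, α)| ≤ n * (2 * ‖v‖) := by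
    intro j α
    refine (Finset.abs_sum_le_sum_abs _ _).trans ?_
    have : ∀ i ∈ (Finset.univ : Finset (Fin n)), |s x i j * v (some i, α)| ≤ 2 * ‖v‖ := by
      intro i _
      rw [abs_mul]
      exact mul_le_mul (h.abs_le hε i j x) (abs_le_norm v _) (abs_nonneg _) (by norm_num)
    refine (Finset.sum_le_sum this).trans ?_
    simp
  refine (Finset.sum_le_sum fun j _ => Finset.sum_le_sum fun α _ => h1 j α).trans ?_
  simp
  apply le_of_eq; ring

theorem mt_memLp {s : MF n} {ε : ℝ} (h : Bd s ε) (hε : ε ≤ 1) (U : LL n ι) :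
    MemLp (fun x => mt s x (U x)) 2 (mu n) := by
  refine MemLp.of_le_mul (c := 2 * n ^ 2 * Fintype.card ι) (Lp.memLp U) ?_
    (Eventually.of_forall fun x => norm_mt_le h hε x _)
  unfold mt
  refine aesm_mk (fun _ => aestronglyMeasurable_const) fun j α => ?_
  refine Finset.aestronglyMeasurable_fun_sum _ fun i _ => ?_
  refine (h.ct i j).aestronglyMeasurable.mul ?_
  exact (EuclideanSpace.proj (𝕜 := ℝ) (some i, α)).continuous.comp_aestronglyMeasurable
    (Lp.aestronglyMeasurable U)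

/-- multiplication with `s` -/
def TT {s : MF n} {ε : ℝ} (h : Bd s ε) (hε : ε ≤ 1) : LL n ι →L[ℝ] LL n ι :=
  LinearMap.mkContinuous
    { toFun := fun U => (mt_memLp h hε U).toLp _
      map_add' := by
        intro U W
        rw [← MemLp.toLp_add]
        refine MemLp.toLp_congr _ _ ?_
        filter_upwards [Lp.coeFn_add U W] with x hx
        simp only [Pi.add_apply, hx]
        ext o
        rcases o with ⟨o, α⟩
        cases o with
        | none => simp [mt]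
        | some j => simp [mt, mul_add, Finset.sum_add_distrib]
      map_smul' := by
        intro c U
        rw [RingHom.id_apply, ← MemLp.toLp_const_smul]
        refine MemLp.toLp_congr _ _ ?_
        filter_upwards [Lp.coeFn_smul c U] with x hx
        simp only [Pi.smul_apply, hx]
        ext o
        rcases o with ⟨o, α⟩
        cases o with
        | none => simp [mt]
        | some j =>
          simp only [mt, mk_some, PiLp.smul_apply, smul_eq_mul, Finset.mul_sum]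
          refine Finset.sum_congr rfl fun i _ => ?_
          ring }
    (2 * n ^ 2 * Fintype.card ι) (by
      intro U
      refine Lp.norm_le_mul_norm_of_ae_le_mul ?_
      filter_upwards [MemLp.coeFn_toLp (mt_memLp h hε U)] with x hx
      simp only [LinearMap.coe_mk, AddHom.coe_mk]
      rw [hx]
      exact norm_mt_le h hε x _)

theorem TT_coe {s : MF n} {ε : ℝ} (h : Bd s ε) (hε : ε ≤ 1) (U : LL n ι) :
    (TT h hε U : V n → Ev n ι) =ᵐ[mu n] fun x => mt s x (U x) := MemLp.coeFn_toLp (mt_memLp h hε U)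

theorem inner_mt (s : MF n) (x : V n) (v w : Ev n ι) :
    ⟪mt s x v, w⟫ = ∑ i, ∑ j, s x i j * ∑ α, v (some i, α) * w (some j, α) := by
  rw [inner_eq]
  simp only [mt, mk_none, mk_some, zero_mul, Finset.sum_const_zero, zero_add, Finset.sum_mul]
  rw [Finset.sum_comm' (s := Finset.univ) (t := fun _ => Finset.univ) (t' := Finset.univ)
    (s' := fun _ => Finset.univ) (by simp)]
  simp only [Finset.mul_sum]
  rw [Finset.sum_comm]
  simp only [mul_assoc]
  have : ∀ j : Fin n, ∑ α, ∑ i, s x i j * (v (some i, α) * w (some j, α)) =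
      ∑ i, ∑ α, s x i j * (v (some i, α) * w (some j, α)) := fun j => Finset.sum_comm
  simp only [this]
  rw [Finset.sum_comm]

theorem inner_TT {s : MF n} {ε : ℝ} (h : Bd s ε) (hε : ε ≤ 1) (U W : LL n ι) :
    ⟪TT h hε U, W⟫ =
      ∫ x, ∑ i, ∑ j, s x i j * ∑ α, U x (some i, α) * W x (some j, α) ∂(mu n) := by
  rw [L2.inner_def]
  refine integral_congr_ae ?_
  filter_upwards [TT_coe h hε U] with x hx
  rw [hx, inner_mt]

theorem quad_ge {s : MF n} {ε : ℝ} (h : Bd s ε) (hε : ε * n ≤ 1 / 2) (x : V n) (ξ : Fin n → ℝ) :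
    (1 / 2) * ∑ i, ξ i ^ 2 ≤ ∑ i, ∑ j, s x i j * ξ i * ξ j := by
  have h1 : ∑ i, ∑ j, s x i j * ξ i * ξ j = ∑ i, ξ i ^ 2 +
      ∑ i, ∑ j, (s x i j - (1 : Matrix (Fin n) (Fin n) ℝ) i j) * ξ i * ξ j := by
    have h2 : ∑ i, ξ i ^ 2 = ∑ i, ∑ j, (1 : Matrix (Fin n) (Fin n) ℝ) i j * ξ i * ξ j := by
      refine Finset.sum_congr rfl fun i _ => ?_
      simp [Matrix.one_apply, pow_two]
    rw [h2, ← Finset.sum_add_distrib]
    refine Finset.sum_congr rfl fun i _ => ?_
    rw [← Finset.sum_add_distrib]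
    refine Finset.sum_congr rfl fun j _ => ?_
    ring
  have hε0 : 0 ≤ ε ∨ n = 0 := by
    rcases Nat.eq_zero_or_pos n with h0 | h0
    · exact Or.inr h0
    · exact Or.inl ((abs_nonneg _).trans (h.bd ⟨0, h0⟩ ⟨0, h0⟩ x))
  rcases hε0 with hε0 | rfl
  swap
  · simp
  have h3 : |∑ i, ∑ j, (s x i j - (1 : Matrix (Fin n) (Fin n) ℝ) i j) * ξ i * ξ j| ≤
      ε * (∑ i, |ξ i|) ^ 2 := by
    calc _ ≤ ∑ i, ∑ j, |(s x i j - (1 : Matrix (Fin n) (Fin n) ℝ) i j) * ξ i * ξ j| :=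
        (Finset.abs_sum_le_sum_abs _ _).trans
          (Finset.sum_le_sum fun i _ => Finset.abs_sum_le_sum_abs _ _)
      _ ≤ ∑ i, ∑ j, ε * |ξ i| * |ξ j| := by
        refine Finset.sum_le_sum fun i _ => Finset.sum_le_sum fun j _ => ?_
        rw [abs_mul, abs_mul]
        gcongr
        exact h.bd i j x
      _ = ε * (∑ i, |ξ i|) ^ 2 := by
        rw [pow_two, Finset.sum_mul_sum, Finset.mul_sum]
        refine Finset.sum_congr rfl fun i _ => ?_
        rw [Finset.mul_sum]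
        refine Finset.sum_congr rfl fun j _ => ?_
        ring
  have h4 : (∑ i, |ξ i|) ^ 2 ≤ n * ∑ i, ξ i ^ 2 := by
    have := sq_sum_le_card_mul_sum_sq (s := (Finset.univ : Finset (Fin n))) (f := fun i => |ξ i|)
    simpa [sq_abs] using this
  have h5 : 0 ≤ ∑ i, ξ i ^ 2 := Finset.sum_nonneg fun i _ => _root_.sq_nonneg _
  rw [h1]
  have h6 := (abs_le.1 h3).1
  have h7 : ε * (∑ i, |ξ i|) ^ 2 ≤ ε * (n * ∑ i, ξ i ^ 2) := mul_le_mul_of_nonneg_left h4 hε0
  nlinarith [mul_le_mul_of_nonneg_right hε h5]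

theorem quad_ge' {s : MF n} {ε : ℝ} (h : Bd s ε) (hε : ε * n ≤ 1 / 2) (x : V n)
    (ξ : Fin n → ι → ℝ) :
    (1 / 2) * ∑ i, ∑ α, ξ i α ^ 2 ≤ ∑ i, ∑ j, s x i j * ∑ α, ξ i α * ξ j α := by
  have h1 : ∑ i, ∑ j, s x i j * ∑ α, ξ i α * ξ j α =
      ∑ α, ∑ i, ∑ j, s x i j * ξ i α * ξ j α := by
    simp only [Finset.mul_sum]
    rw [Finset.sum_comm' (s := Finset.univ (α := ι)) (t := fun _ => Finset.univ)
      (t' := Finset.univ (α := Fin n)) (s' := fun _ => Finset.univ) (by simp)]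
    refine Finset.sum_congr rfl fun i _ => ?_
    rw [Finset.sum_comm]
    refine Finset.sum_congr rfl fun j _ => Finset.sum_congr rfl fun α _ => ?_
    ring
  rw [h1, Finset.sum_comm, Finset.mul_sum]
  exact Finset.sum_le_sum fun α _ => quad_ge h hε x fun i => ξ i α

theorem norm_sq_LL (U : LL n ι) : ‖U‖ ^ 2 =
    ∫ x, (∑ α, U x (none, α) ^ 2 + ∑ i, ∑ α, U x (some i, α) ^ 2) ∂(mu n) := by
  rw [← real_inner_self_eq_norm_sq, L2.inner_def]
  refine integral_congr_ae (Eventually.of_forall fun x => ?_)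
  simp only [real_inner_self_eq_norm_sq, norm_sq_eq]

theorem integral_mu_T2 {f : V n → ℝ} (h : T2 f) : ∫ x, f x ∂(mu n) = ∫ x, f x :=
  setIntegral_eq_integral_of_forall_compl_eq_zero fun x hx => h.zero hx

/-- the connection is absorbed -/
theorem grad_le {A : Cv n ι} {ε : ℝ} (hA : Sk A ε) (u : ι → ℝ) (g : Fin n → ι → ℝ) (x : V n) :
    ∑ i, ∑ α, g i α ^ 2 ≤ 2 * ∑ i, ∑ α, (g i α + ∑ β, A i x α β * u β) ^ 2 +
      2 * n * Fintype.card ι ^ 2 * ε ^ 2 * ∑ β, u β ^ 2 := by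
  have h1 : ∀ i α, g i α ^ 2 ≤ 2 * (g i α + ∑ β, A i x α β * u β) ^ 2 +
      2 * (Fintype.card ι * ε ^ 2 * ∑ β, u β ^ 2) := by
    intro i α
    have h2 : (∑ β, A i x α β * u β) ^ 2 ≤ Fintype.card ι * ε ^ 2 * ∑ β, u β ^ 2 := by
      have h3 := Finset.sum_mul_sq_le_sq_mul_sq Finset.univ (fun β => A i x α β) u
      have h4 : ∑ β, A i x α β ^ 2 ≤ Fintype.card ι * ε ^ 2 := by
        have : ∀ β ∈ (Finset.univ : Finset ι), A i x α β ^ 2 ≤ ε ^ 2 := by
          intro β _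
          rw [← sq_abs]
          exact pow_le_pow_left₀ (abs_nonneg _) (hA.bd i x α β) 2
        refine (Finset.sum_le_sum this).trans ?_
        simp
      have h5 : 0 ≤ ∑ β, u β ^ 2 := Finset.sum_nonneg fun i _ => _root_.sq_nonneg _
      exact h3.trans (mul_le_mul_of_nonneg_right h4 h5)
    nlinarith [_root_.sq_nonneg (g i α + 2 * ∑ β, A i x α β * u β)]
  refine (Finset.sum_le_sum fun i _ => Finset.sum_le_sum fun α _ => h1 i α).trans ?_
  simp only [Finset.sum_add_distrib, ← Finset.mul_sum, Finset.sum_const, Finset.card_univ,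
    Fintype.card_fin, nsmul_eq_mul]
  apply le_of_eq
  ring

/-- Hardy's inequality with the covariant derivative -/
theorem hardyA (hn : 2 ≤ n) {A : Cv n ι} {ε : ℝ} (hA : Sk A ε)
    (hε : 16 * n * Fintype.card ι ^ 2 * ε ^ 2 ≤ 1) {φ : ι → V n → ℝ} (h : TV φ) :
    ∫ x, ∑ α, (φ α x / ro x) ^ 2 ≤ ∫ x, ∑ i, ∑ α, DD A i φ α x ^ 2 := by
  have hA1 : T2 fun x => ∑ α, (φ α x / ro x) ^ 2 := T2.sum _ fun α _ => (h α).div.sq
  have hG : T2 fun x => ∑ i, ∑ α, LR.pd i (φ α) x ^ 2 :=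
    T2.sum _ fun i _ => T2.sum _ fun α _ => ((h α).pd i).sq
  have hD : T2 fun x => ∑ i, ∑ α, DD A i φ α x ^ 2 :=
    T2.sum _ fun i _ => T2.sum _ fun α _ => (DD_T2 hA h i α).sq
  have h1 : 4 * ∫ x, ∑ α, (φ α x / ro x) ^ 2 ≤ ∫ x, ∑ i, ∑ α, LR.pd i (φ α) x ^ 2 := by
    rw [integral_finsetSum _ fun α _ => (h α).div.sq.integrable, Finset.mul_sum]
    have e : ∫ x, ∑ i, ∑ α, LR.pd i (φ α) x ^ 2 = ∑ α, ∫ x, ∑ i, LR.pd i (φ α) x ^ 2 := by
      rw [← integral_finsetSum _ fun α _ => (T2.sum _ fun i _ => ((h α).pd i).sq).integrable]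
      refine integral_congr_ae (Eventually.of_forall fun x => ?_)
      exact Finset.sum_comm
    rw [e]
    exact Finset.sum_le_sum fun α _ => hardy hn (h α)
  have h2 : ∫ x, ∑ i, ∑ α, LR.pd i (φ α) x ^ 2 ≤
      ∫ x, (2 * ∑ i, ∑ α, DD A i φ α x ^ 2 + 2 * ∑ α, (φ α x / ro x) ^ 2) := by
    refine integral_mono hG.integrable
      ((hD.integrable.const_mul _).add (hA1.integrable.const_mul _)) fun x => ?_
    by_cases hx : x ∈ B2 n
    · have hr := ro_pos hx
      have hr4 := ro_le x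
      have h3 := grad_le hA (fun β => φ β x) (fun i α => LR.pd i (φ α) x) x
      have h4 : ∑ β, φ β x ^ 2 ≤ 16 * ∑ α, (φ α x / ro x) ^ 2 := by
        rw [Finset.mul_sum]
        refine Finset.sum_le_sum fun β _ => ?_
        have h5 : φ β x ^ 2 = ro x ^ 2 * (φ β x / ro x) ^ 2 := by field_simp
        rw [h5]
        have h6 : ro x ^ 2 ≤ 16 := by nlinarith
        exact mul_le_mul_of_nonneg_right h6 (_root_.sq_nonneg _)
      have h7 : 0 ≤ ∑ α, (φ α x / ro x) ^ 2 := Finset.sum_nonneg fun i _ => _root_.sq_nonneg _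
      have h8 : 2 * n * Fintype.card ι ^ 2 * ε ^ 2 * ∑ β, φ β x ^ 2 ≤
          2 * ∑ α, (φ α x / ro x) ^ 2 := by
        have h9 : 0 ≤ 2 * (n : ℝ) * Fintype.card ι ^ 2 * ε ^ 2 := by positivity
        calc _ ≤ 2 * n * Fintype.card ι ^ 2 * ε ^ 2 * (16 * ∑ α, (φ α x / ro x) ^ 2) :=
              mul_le_mul_of_nonneg_left h4 h9
          _ = 2 * (16 * n * Fintype.card ι ^ 2 * ε ^ 2) * ∑ α, (φ α x / ro x) ^ 2 := by ring
          _ ≤ 2 * 1 * ∑ α, (φ α x / ro x) ^ 2 := by gcongr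
          _ = _ := by ring
      simp only [DD]
      linarith
    · simp [((h _).pd _).zero hx, (h _).zero hx, DD]
  rw [integral_add (hD.integrable.const_mul _) (hA1.integrable.const_mul _), integral_const_mul,
    integral_const_mul] at h2
  linarith

/-- coercivity on jets -/
theorem coercive_J (hn : 2 ≤ n) {A : Cv n ι} {ε₁ : ℝ} (hA : Sk A ε₁)
    (hε₁ : 16 * n * Fintype.card ι ^ 2 * ε₁ ^ 2 ≤ 1) {s : MF n} {ε : ℝ} (h : Bd s ε) (hε : ε ≤ 1)
    (hε' : ε * n ≤ 1 / 2) {φ : ι → V n → ℝ} (hφ : TV φ) :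
    ‖J hA hφ‖ ^ 2 ≤ 4 * ⟪TT h hε (J hA hφ), J hA hφ⟫ := by
  have e1 : ‖J hA hφ‖ ^ 2 = ∫ x, (∑ α, (φ α x / ro x) ^ 2 + ∑ i, ∑ α, DD A i φ α x ^ 2) ∂(mu n) := by
    rw [norm_sq_LL]
    refine integral_congr_ae ?_
    filter_upwards [J_coe hA hφ] with x hx
    rw [hx]; rfl
  have e2 : ⟪TT h hε (J hA hφ), J hA hφ⟫ =
      ∫ x, ∑ i, ∑ j, s x i j * ∑ α, DD A i φ α x * DD A j φ α x ∂(mu n) := by
    rw [inner_TT]
    refine integral_congr_ae ?_
    filter_upwards [J_coe hA hφ] with x hx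
    rw [hx]; rfl
  have hA1 : T2 fun x => ∑ α, (φ α x / ro x) ^ 2 := T2.sum _ fun α _ => (hφ α).div.sq
  have hD : T2 fun x => ∑ i, ∑ α, DD A i φ α x ^ 2 :=
    T2.sum _ fun i _ => T2.sum _ fun α _ => (DD_T2 hA hφ i α).sq
  have hS : Integrable (fun x => ∑ i, ∑ j, s x i j * ∑ α, DD A i φ α x * DD A j φ α x)
      (mu n) := by
    refine Integrable.restrict ?_
    refine Continuous.integrable_of_hasCompactSupport ?_ ?_
    · refine continuous_finsetSum _ fun i _ => continuous_finsetSum _ fun j _ => ?_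
      refine (h.ct i j).mul (continuous_finsetSum _ fun α _ => ?_)
      exact (DD_T2 hA hφ i α).sm.continuous.mul (DD_T2 hA hφ j α).sm.continuous
    · refine hasCompactSupport_of_TV hφ fun x hx => ?_
      simp [DD_zero_of_notMem hx]
  rw [e1, e2, integral_add hA1.integrable.restrict hD.integrable.restrict, integral_mu_T2 hA1,
    integral_mu_T2 hD]
  have h1 := hardyA hn hA hε₁ hφ
  have h2 : (1 / 2) * ∫ x, ∑ i, ∑ α, DD A i φ α x ^ 2 ≤
      ∫ x, ∑ i, ∑ j, s x i j * ∑ α, DD A i φ α x * DD A j φ α x ∂(mu n) := by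
    rw [← integral_mu_T2 hD, ← integral_const_mul]
    exact integral_mono (hD.integrable.restrict.const_mul _) hS fun x =>
      quad_ge' h hε' x fun i α => DD A i φ α x
  linarith

theorem coercive_KK (hn : 2 ≤ n) {A : Cv n ι} {ε₁ : ℝ} (hA : Sk A ε₁)
    (hε₁ : 16 * n * Fintype.card ι ^ 2 * ε₁ ^ 2 ≤ 1) {s : MF n} {ε : ℝ} (h : Bd s ε) (hε : ε ≤ 1)
    (hε' : ε * n ≤ 1 / 2) {U : LL n ι} (hU : U ∈ KK hA) :
    ‖U‖ ^ 2 ≤ 4 * ⟪TT h hε U, U⟫ := by
  refine KK_induction hA (P := fun U => ‖U‖ ^ 2 ≤ 4 * ⟪TT h hε U, U⟫) ?_ ?_ hU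
  · refine isClosed_le (by fun_prop) ?_
    exact continuous_const.mul (((TT h hε).continuous).inner continuous_id)
  · intro φ hφ
    exact coercive_J hn hA hε₁ h hε hε' hφ

/-- Lax-Milgram -/
theorem exists_sol (hn : 2 ≤ n) {A : Cv n ι} {ε₁ : ℝ} (hA : Sk A ε₁)
    (hε₁ : 16 * n * Fintype.card ι ^ 2 * ε₁ ^ 2 ≤ 1) {s : MF n} {ε : ℝ} (h : Bd s ε) (hε : ε ≤ 1)
    (hε' : ε * n ≤ 1 / 2) (R : LL n ι) : ∃ U ∈ KK hA, ∀ W ∈ KK hA,
      ⟪TT h hε U, W⟫ = ⟪R, W⟫ := by
  set A' : KK hA →L[ℝ] KK hA := ((KK hA).orthogonalProjectionOnto.comp (TT h hε)).comp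
    (KK hA).subtypeL with hA'
  set B : KK hA →L[ℝ] KK hA →L[ℝ] ℝ := (innerSL ℝ).comp A' with hB
  have hBe : ∀ U W : KK hA, B U W = ⟪TT h hε (U : LL n ι), (W : LL n ι)⟫ := by
    intro U W
    simp only [hB, hA', ContinuousLinearMap.comp_apply, innerSL_apply_apply]
    rw [← Submodule.inner_orthogonalProjectionOnto_eq_of_mem_right]
    rfl
  have hco : IsCoercive B := by
    refine ⟨1 / 4, by norm_num, fun U => ?_⟩
    rw [hBe]
    have := coercive_KK hn hA hε₁ h hε hε' U.2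
    have h2 : ‖(U : LL n ι)‖ = ‖U‖ := rfl
    rw [h2] at this
    nlinarith
  set U := hco.continuousLinearEquivOfBilin.symm ((KK hA).orthogonalProjectionOnto R) with hU
  refine ⟨U, U.2, ?_⟩
  intro W hW
  have h1 := hco.continuousLinearEquivOfBilin_apply U ⟨W, hW⟩
  rw [hU, ContinuousLinearEquiv.apply_symm_apply, ← hU, hBe] at h1
  change ⟪TT h hε (U : LL n ι), W⟫ = ⟪R, W⟫
  refine h1.symm.trans ?_
  exact Submodule.inner_orthogonalProjectionOnto_eq_of_mem_right (⟨W, hW⟩ : KK hA) R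

end Vale.Agent.P088.HY.H285
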